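import Mathlib

/-! P147: a killed random walk of lateral dimension at least two with summable killing has
infinite mean lifetime. -/

namespace Vale.Agent.P147

open scoped ENNReal Topology
open Filter Finset

namespace Cor

variable {G J : Type} [AddCommGroup G]

abbrev Op (G : Type) : Type := Module.End ℝ≥0∞ (G → ℝ≥0∞)

/-- weighted shift operator -/
noncomputable def kr (v : J → G → ℝ≥0∞) (δ : J → G) : Op G where
  toFun f z := ∑' σ, v σ z * f (z + δ σ)
  map_add' f g := by funext z; simp only [Pi.add_apply, mul_add, ENNReal.tsum_add]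
  map_smul' c f := by
    funext z
    simp only [Pi.smul_apply, smul_eq_mul, RingHom.id_apply, ← ENNReal.tsum_mul_left, mul_left_comm]

theorem kr_apply (v : J → G → ℝ≥0∞) (δ : J → G) (f : G → ℝ≥0∞) (z : G) :
    kr v δ f z = ∑' σ, v σ z * f (z + δ σ) := rfl

def Mo (T : Op G) : Prop := ∀ f g, f ≤ g → T f ≤ T g

theorem kr_mo (v : J → G → ℝ≥0∞) (δ : J → G) : Mo (kr v δ) := fun _ _ h z =>
  ENNReal.tsum_le_tsum (fun σ => mul_le_mul_right (h _) _)

omit [AddCommGroup G] in
theorem Mo.pow {T : Op G} (h : Mo T) (n : ℕ) : Mo (T ^ n) := by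
  induction n with
  | zero => intro f g hfg; simpa using hfg
  | succ n ih => intro f g hfg; rw [pow_succ]; exact ih _ _ (h _ _ hfg)

omit [AddCommGroup G] in
theorem pow_le {T T' : Op G} (h : Mo T) (hl : ∀ f, T f ≤ T' f) (n : ℕ) (f : G → ℝ≥0∞) :
    (T ^ n) f ≤ (T' ^ n) f := by
  induction n with
  | zero => exact le_rfl
  | succ n ih => rw [pow_succ', pow_succ']; exact (h _ _ ih).trans (hl _)

/-- shift -/
def sh (e : G) : Op G where
  toFun f z := f (z + e)
  map_add' _ _ := rfl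
  map_smul' _ _ := rfl

theorem sh_pow (e : G) (m : ℕ) (f : G → ℝ≥0∞) (z : G) : (sh e ^ m) f z = f (z + m • e) := by
  induction m generalizing z with
  | zero => simp
  | succ m ih =>
    rw [pow_succ', Module.End.mul_apply]
    change (sh e ^ m) f (z + e) = _
    rw [ih, succ_nsmul']; congr 1; abel

theorem sh_comm (w : J → ℝ≥0∞) (δ : J → G) (e : G) : Commute (kr (fun σ _ => w σ) δ) (sh e) := by
  ext f z
  change ∑' σ, w σ * f (z + δ σ + e) = ∑' σ, w σ * f (z + e + δ σ)
  simp only [add_right_comm]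

theorem sh_sh (e e' : G) : Commute (sh e) (sh e') := by
  ext f z
  change f (z + e + e') = f (z + e' + e)
  rw [add_right_comm]

theorem bin (e : G) (k : ℕ) (f : G → ℝ≥0∞) (z : G) :
    ((sh e + 1) ^ k) f z = ∑ a ∈ range (k + 1), (k.choose a : ℝ≥0∞) * f (z + a • e) := by
  rw [(Commute.one_right (sh e)).add_pow]
  simp only [one_pow, mul_one, LinearMap.coe_sum, Finset.sum_apply, Module.End.mul_apply,
    Module.End.natCast_apply, sh_pow, nsmul_eq_mul, Pi.mul_apply, Pi.natCast_apply]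

theorem cb (m : ℕ) : m.centralBinom ^ 2 * (2 * m + 1) ≤ 16 ^ m := by
  induction m with
  | zero => simp
  | succ m ih =>
    have h := Nat.succ_mul_centralBinom_succ m
    have h2 : (m + 1) ^ 2 * ((m + 1).centralBinom ^ 2 * (2 * (m + 1) + 1)) ≤
        (m + 1) ^ 2 * 16 ^ (m + 1) := by
      calc _ = ((m + 1) * (m + 1).centralBinom) ^ 2 * (2 * m + 3) := by ring
        _ = (m.centralBinom ^ 2 * (2 * m + 1)) * (4 * ((2 * m + 1) * (2 * m + 3))) := by
          rw [h]; ring
        _ ≤ 16 ^ m * (16 * (m + 1) ^ 2) := Nat.mul_le_mul ih (by nlinarith)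
        _ = _ := by ring
    exact Nat.le_of_mul_le_mul_left h2 (by positivity)

theorem ch (k a b : ℕ) : k.choose a * k.choose b * (k + 1) ≤ 4 * 4 ^ k := by
  have h1 : ∀ a, k.choose a ≤ ((k + 1) / 2).centralBinom := fun a =>
    (Nat.choose_le_choose a (by omega)).trans (Nat.choose_le_centralBinom a _)
  calc _ ≤ ((k + 1) / 2).centralBinom ^ 2 * (2 * ((k + 1) / 2) + 1) := by
        rw [sq]; exact Nat.mul_le_mul (Nat.mul_le_mul (h1 a) (h1 b)) (by omega)
    _ ≤ 16 ^ ((k + 1) / 2) := cb _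
    _ = 4 ^ (2 * ((k + 1) / 2)) := by rw [pow_mul]; norm_num
    _ ≤ 4 ^ (k + 1) := Nat.pow_le_pow_right (by norm_num) (by omega)
    _ = _ := by ring

theorem base {e e' : G} (hi : Function.Injective (fun p : ℕ × ℕ => p.1 • e + p.2 • e')) (k : ℕ)
    (f : G → ℝ≥0∞) (z : G) :
    (k + 1 : ℝ≥0∞) * (((sh e + 1) * (sh e' + 1)) ^ k) f z ≤ 4 * 4 ^ k * ∑' y, f y := by
  have hc : Commute (sh e + 1) (sh e' + 1) :=
    ((sh_sh e e').add_left (Commute.one_left _)).add_right (Commute.one_right _)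
  rw [hc.mul_pow, Module.End.mul_apply, bin]
  simp only [bin, mul_sum]
  rw [← sum_product']
  calc _ ≤ ∑ p ∈ range (k + 1) ×ˢ range (k + 1), 4 * 4 ^ k * f (z + (p.1 • e + p.2 • e')) := by
        refine sum_le_sum (fun p _ => ?_)
        rw [← mul_assoc, ← mul_assoc, add_assoc]
        refine mul_le_mul_left ?_ _
        have := ch k p.1 p.2
        rw [mul_comm, ← mul_assoc] at this
        exact_mod_cast this
    _ ≤ _ := by
        rw [← mul_sum]
        refine mul_le_mul_right ((ENNReal.sum_le_tsum _).trans ?_) _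
        exact ENNReal.tsum_comp_le_tsum_of_injective
          (f := fun p : ℕ × ℕ => z + (p.1 • e + p.2 • e')) ((add_right_injective z).comp hi) f

theorem num {θ : ℝ} (h0 : 0 ≤ θ) {x : ℝ} (hx : 1 ≤ x) :
    θ * (4 / (x + 1)) + (1 - θ) * (4 / x) ≤ 4 / (x + θ / 2) := by
  have hx0 : 0 < x := by linarith
  rw [show θ * (4 / (x + 1)) + (1 - θ) * (4 / x) = 4 * (x + 1 - θ) / (x * (x + 1)) by
    field_simp; ring, div_le_div_iff₀ (by positivity) (by positivity)]
  nlinarith [mul_nonneg h0 (sub_nonneg.2 hx), mul_nonneg h0 h0]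

theorem anti {M M1 A : Op G} {θ : ℝ} (h0 : 0 ≤ θ) (h1 : θ ≤ 1)
    (hM : M = ENNReal.ofReal θ • A + M1) (hc : Commute A M)
    (hM1 : ∀ f c, (∀ z, f z ≤ c) → ∀ z, M1 f z ≤ ENNReal.ofReal (1 - θ) * c) (f : G → ℝ≥0∞)
    (V : ℝ≥0∞) (hA : ∀ (k : ℕ) z, (A ^ k) f z ≤ ENNReal.ofReal (4 / (k + 1)) * V) (n : ℕ) :
    ∀ (k : ℕ) z, (M ^ n * A ^ k) f z ≤ ENNReal.ofReal (4 / (θ * n / 2 + k + 1)) * V := by
  induction n with
  | zero => simpa using hA
  | succ n ih =>
    intro k z
    have e1 : M ^ (n + 1) * A ^ k = ENNReal.ofReal θ • (M ^ n * A ^ (k + 1)) +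
        M1 * (M ^ n * A ^ k) := by
      rw [pow_succ', mul_assoc]
      conv_lhs => rw [show M * (M ^ n * A ^ k) = (ENNReal.ofReal θ • A + M1) * (M ^ n * A ^ k) by
        rw [← hM]]
      rw [add_mul, smul_mul_assoc, ← mul_assoc A, (hc.pow_right n).eq, mul_assoc, ← pow_succ']
    rw [e1, LinearMap.add_apply, Pi.add_apply, LinearMap.smul_apply, Pi.smul_apply, smul_eq_mul,
      Module.End.mul_apply M1]
    refine (add_le_add (mul_le_mul_right (ih (k + 1) z) _) (hM1 _ _ (ih k) z)).trans ?_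
    have hx : 1 ≤ θ * n / 2 + k + 1 := by
      have : 0 ≤ θ * n / 2 + k := by positivity
      linarith
    rw [← mul_assoc, ← mul_assoc, ← add_mul, ← ENNReal.ofReal_mul h0,
      ← ENNReal.ofReal_mul (by linarith), ← ENNReal.ofReal_add (by positivity)
        (mul_nonneg (by linarith) (by positivity))]
    refine mul_le_mul_left (ENNReal.ofReal_le_ofReal ?_) _
    have := num h0 hx
    push_cast
    rw [show θ * (n + 1) / 2 + k + 1 = θ * n / 2 + k + 1 + θ / 2 by ring,
      show θ * n / 2 + (k + 1) + 1 = θ * n / 2 + k + 1 + 1 by ring]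
    exact this

theorem conc (w : J → ℝ≥0∞) (hw : ∑' σ, w σ = 1) (δ : J → G) {e e' : G}
    (hi : Function.Injective (fun p : ℕ × ℕ => p.1 • e + p.2 • e')) (σ : Fin 2 × Fin 2 → J)
    (hp : ∀ p, w (σ p) ≠ 0) (hδ : ∀ p, δ (σ p) = p.1.1 • e + p.2.1 • e') :
    ∃ θ : ℝ, 0 < θ ∧ ∀ (n : ℕ) f z, (kr (fun σ _ => w σ) δ ^ n) f z ≤
      ENNReal.ofReal (4 / (θ * n / 2 + 1)) * ∑' y, f y := by
  classical
  have hσ : Function.Injective σ := fun p q h => by
    have := hi (a₁ := (p.1.1, p.2.1)) (a₂ := (q.1.1, q.2.1)) (by simp only [← hδ, h])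
    exact Prod.ext (Fin.ext (congrArg Prod.fst this)) (Fin.ext (congrArg Prod.snd this))
  obtain ⟨p0, -, hp0⟩ := exists_min_image univ (fun p => w (σ p)) univ_nonempty
  set c := w (σ p0) with hc
  set u : J → ℝ≥0∞ := fun j => ∑ p, if j = σ p then c else 0 with hu
  have hu1 : ∀ j, u j ≤ w j := by
    intro j
    by_cases h : ∃ p, j = σ p
    · obtain ⟨p, rfl⟩ := h
      simpa [hu, hσ.eq_iff] using hp0 p (mem_univ _)
    · push Not at h
      simp [hu, h]
  have hu2 : ∀ F : J → ℝ≥0∞, ∑' j, u j * F j = c * ∑ p, F (σ p) := by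
    intro F
    simp only [hu, sum_mul, ite_mul, zero_mul, mul_sum]
    rw [Summable.tsum_finsetSum (fun _ _ => ENNReal.summable)]
    simp only [tsum_ite_eq]
  have hs : ∑' j, (w j - u j) + 4 * c = 1 := by
    have := hu2 (fun _ => 1)
    simp only [mul_one, sum_const, card_univ, Fintype.card_prod, Fintype.card_fin,
      nsmul_eq_mul] at this
    rw [← hw, mul_comm, show (4 : ℝ≥0∞) = ((2 * 2 : ℕ) : ℝ≥0∞) by norm_num, ← this,
      ← ENNReal.tsum_add]
    simp only [tsub_add_cancel_of_le (hu1 _)]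
  have h4 : 4 * c ≤ 1 := hs ▸ le_add_self
  have h4' : 4 * c ≠ ⊤ := ne_top_of_le_ne_top ENNReal.one_ne_top h4
  have hθ : ENNReal.ofReal (4 * c).toReal = 4 * c := ENNReal.ofReal_toReal h4'
  refine ⟨(4 * c).toReal, ENNReal.toReal_pos (mul_ne_zero (by simp) (hp p0)) h4', fun n f z => ?_⟩
  have hB : Commute ((sh e + 1) * (sh e' + 1)) (kr (fun σ _ => w σ) δ) :=
    ((sh_comm w δ e).symm.add_left (Commute.one_left _)).mul_left
      ((sh_comm w δ e').symm.add_left (Commute.one_left _))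
  have := anti (M := kr (fun σ _ => w σ) δ) (M1 := kr (fun σ _ => w σ - u σ) δ)
    (A := (4⁻¹ : ℝ≥0∞) • ((sh e + 1) * (sh e' + 1))) ENNReal.toReal_nonneg
    (ENNReal.toReal_le_of_le_ofReal zero_le_one (by simpa using h4)) ?_ (hB.smul_left _) ?_ f
    (∑' y, f y) ?_ n 0 z
  · simpa using this
  · ext f z
    rw [hθ, smul_smul, mul_right_comm, ENNReal.mul_inv_cancel (by simp) (by simp), one_mul]
    change ∑' j, w j * f (z + δ j) = c * ((f (z + e + e') + f (z + e)) + (f (z + e') + f z)) +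
      ∑' j, (w j - u j) * f (z + δ j)
    have := hu2 (fun j => f (z + δ j))
    simp only [Fintype.sum_prod_type, Fin.sum_univ_two, hδ, Fin.val_zero, Fin.val_one, zero_smul,
      one_smul, add_zero, ← add_assoc] at this
    rw [show f (z + e + e') + f (z + e) + (f (z + e') + f z) =
      f z + f (z + e') + f (z + e) + f (z + e + e') by ring, ← this, ← ENNReal.tsum_add]
    simp only [← add_mul, add_tsub_cancel_of_le (hu1 _)]
  · intro f b hb z
    rw [ENNReal.ofReal_sub _ ENNReal.toReal_nonneg, hθ, ENNReal.ofReal_one,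
      ← ENNReal.eq_sub_of_add_eq h4' hs, ← ENNReal.tsum_mul_right]
    exact ENNReal.tsum_le_tsum (fun j => mul_le_mul_right (hb _) _)
  · intro k z
    have hb := base hi k f z
    have hk : (k + 1 : ℝ≥0∞) ≠ 0 := by simp
    have hk' : (k + 1 : ℝ≥0∞) ≠ ⊤ := by simp
    rw [smul_pow, LinearMap.smul_apply, Pi.smul_apply, smul_eq_mul,
      ENNReal.ofReal_div_of_pos (by positivity),
      show ENNReal.ofReal ((k : ℝ) + 1) = (k + 1 : ℝ≥0∞) by
        rw [ENNReal.ofReal_add (by positivity) zero_le_one]; simp,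
      ENNReal.ofReal_ofNat, ← ENNReal.mul_le_mul_iff_right hk hk', ← mul_assoc (k + 1 : ℝ≥0∞) (_ / _),
      ENNReal.mul_div_cancel hk hk', mul_left_comm]
    refine (mul_le_mul_right hb _).trans (le_of_eq ?_)
    rw [← mul_assoc, mul_left_comm, ← mul_pow, ENNReal.inv_mul_cancel (by simp) (by simp)]
    simp

theorem grow {a : ℕ → ℝ≥0∞} {R : ℝ≥0∞} (hR : R ≠ ⊤) (h1 : ∀ j, a j ≤ 1) (h0 : 3 / 4 ≤ a 1)
    (hs : ∀ j, a (j + 1) ≤ a (j + 2) + 3 / 16 * a j) (hb : ∀ j, 2 ^ j * a j ≤ R) : False := by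
  have ht : ∀ j, a j ≠ ⊤ := fun j => ne_top_of_le_ne_top ENNReal.one_ne_top (h1 j)
  set b : ℕ → ℝ := fun j => (a j).toReal with hb'
  have b1 : b 0 ≤ 1 := ENNReal.toReal_le_of_le_ofReal zero_le_one (by simpa using h1 0)
  have b0 : 3 / 4 ≤ b 1 := by simpa using ENNReal.toReal_mono (ht 1) h0
  have bs : ∀ j, b (j + 1) ≤ b (j + 2) + 3 / 16 * b j := fun j => by
    have := ENNReal.toReal_mono (ENNReal.add_ne_top.2 ⟨ht _, ENNReal.mul_ne_top
      (ENNReal.div_ne_top (by simp) (by simp)) (ht _)⟩) (hs j)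
    rw [ENNReal.toReal_add (ht _) (ENNReal.mul_ne_top
      (ENNReal.div_ne_top (by simp) (by simp)) (ht _))] at this
    simpa using this
  have bb : ∀ j, 2 ^ j * b j ≤ R.toReal := fun j => by simpa using ENNReal.toReal_mono hR (hb j)
  have h2 : ∀ j, 3 / 4 * b j ≤ b (j + 1) ∧ (3 / 4) ^ (j + 1) ≤ b (j + 1) := by
    intro j
    induction j with
    | zero => exact ⟨by linarith, by simpa using b0⟩
    | succ j ih =>
      have := bs j
      refine ⟨by linarith [ih.1], ?_⟩
      rw [pow_succ]; linarith [ih.1, ih.2]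
  obtain ⟨j, hj⟩ := pow_unbounded_of_one_lt R.toReal (show (1 : ℝ) < 3 / 2 by norm_num)
  have h3 := (mul_le_mul_of_nonneg_left (h2 j).2 (by positivity : (0 : ℝ) ≤ 2 ^ (j + 1))).trans
    (bb (j + 1))
  rw [← mul_pow, show (2 : ℝ) * (3 / 4) = 3 / 2 by norm_num, pow_succ] at h3
  have : (0 : ℝ) < (3 / 2) ^ j := by positivity
  linarith

end Cor

open Cor in
theorem core {G J : Type} [AddCommGroup G] (w : J → ℝ≥0∞) (hw : ∑' σ, w σ = 1) (δ : J → G)
    (B : J → G → Prop) [∀ σ z, Decidable (B σ z)]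
    (hB : ∑' p : J × G, (if B p.1 p.2 then w p.1 else 0) ≠ ⊤) (R : G → ℝ≥0∞) (hR : ∀ z, R z ≠ ⊤)
    (hR' : ∀ z, 1 + ∑' σ, (if B σ z then 0 else w σ) * R (z + δ σ) ≤ R z) {e e' : G}
    (hi : Function.Injective (fun p : ℕ × ℕ => p.1 • e + p.2 • e')) (σ : Fin 2 × Fin 2 → J)
    (hp : ∀ p, w (σ p) ≠ 0) (hδ : ∀ p, δ (σ p) = p.1.1 • e + p.2.1 • e') : False := by
  obtain ⟨θ, hθ, hM⟩ := conc w hw δ hi σ hp hδ
  set K : Op G := kr (fun σ z => if B σ z then 0 else w σ) δ with hK
  set M : Op G := kr (fun σ _ => w σ) δ with hM'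
  have hKM : ∀ f, K f ≤ M f := fun f z =>
    ENNReal.tsum_le_tsum (fun σ => mul_le_mul_left (by beta_reduce; split_ifs <;> simp) _)
  set s : ℕ → G → ℝ≥0∞ := fun n => (K ^ n) 1 with hs
  let t : ℕ → G → ℝ≥0∞ := fun n => Nat.rec (fun _ => 0)
    (fun _ tn z => ∑' σ, (if B σ z then w σ else 0) + K tn z) n
  have t1 : ∀ n z, t (n + 1) z = ∑' σ, (if B σ z then w σ else 0) + K (t n) z := fun _ _ => rfl
  have s1 : ∀ n, s (n + 1) = K (s n) := fun n => by simp only [hs, pow_succ', Module.End.mul_apply]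
  have hst : ∀ n, s n + t n = 1 := by
    intro n
    induction n with
    | zero => funext z; simp [hs, t]
    | succ n ih =>
      funext z
      rw [Pi.add_apply, s1, t1, add_left_comm, ← Pi.add_apply (K _), ← map_add, ih, kr_apply,
        ← ENNReal.tsum_add, Pi.one_apply, ← hw]
      congr 1; funext σ; split_ifs <;> simp
  have sle : ∀ n z, s n z ≤ 1 := fun n z => le_self_add.trans (congrFun (hst n) z).le
  have hsR : ∀ N, ∑ n ∈ range N, s n ≤ R := by
    intro N
    induction N with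
    | zero => intro z; simp
    | succ N ih =>
      intro z
      rw [sum_range_succ']
      simp only [s1, ← map_sum]
      rw [add_comm]
      exact le_trans (add_le_add le_rfl (kr_mo _ _ _ _ ih z)) (hR' z)
  have santi : ∀ n m, n ≤ m → s m ≤ s n := by
    intro n m h
    obtain ⟨k, rfl⟩ := Nat.exists_eq_add_of_le h
    simp only [hs, pow_add, Module.End.mul_apply]
    exact (kr_mo _ _).pow n _ _ (sle k)
  have hV : ∀ N, ∑' z, t N z ≤ ∑' p : J × G, (if B p.1 p.2 then w p.1 else 0) *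
      (∑ n ∈ range N, s n) (p.2 + δ p.1) := by
    intro N
    induction N with
    | zero => simp [t]
    | succ N ih =>
      simp only [sum_range_succ, Pi.add_apply, mul_add, ENNReal.tsum_add]
      refine le_trans ?_ (add_le_add_left ih _)
      have e1 : ∑' z, t N z = ∑' p : J × G, w p.1 * t N (p.2 + δ p.1) := by
        rw [ENNReal.tsum_prod (f := fun σ z => w σ * t N (z + δ σ))]
        simp only [ENNReal.tsum_mul_left]
        have : ∀ σ, ∑' z, t N (z + δ σ) = ∑' z, t N z := fun σ => (Equiv.addRight (δ σ)).tsum_eq _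
        simp only [this, ENNReal.tsum_mul_right, hw, one_mul]
      rw [e1, ← ENNReal.tsum_add, ENNReal.tsum_prod', ENNReal.tsum_comm]
      refine ENNReal.tsum_le_tsum (fun z => ?_)
      rw [t1, kr_apply, ← ENNReal.tsum_add]
      refine ENNReal.tsum_le_tsum (fun σ => ?_)
      have := congrFun (hst N) (z + δ σ)
      split_ifs
      · rw [← mul_add, add_comm (t N _)]
        exact (by rw [zero_mul, add_zero]; exact le_mul_of_one_le_right' this.ge)
      · simp
  have hη : (0 : ℝ≥0∞) < ENNReal.ofReal (θ / 200) := by simpa using hθ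
  obtain ⟨F, hF⟩ := ((ENNReal.tendsto_tsum_compl_atTop_zero hB).eventually (ge_mem_nhds hη)).exists
  set D := ∑ p ∈ F, (if B p.1 p.2 then w p.1 else 0) * R (p.2 + δ p.1) with hD
  have hDt : D ≠ ⊤ := ENNReal.sum_ne_top.2 (fun p _ => ENNReal.mul_ne_top
    (ne_top_of_le_ne_top hB (ENNReal.le_tsum p)) (hR _))
  have hV' : ∀ N, ∑' z, t N z ≤ ENNReal.ofReal (D.toReal + θ / 200 * N) := by
    intro N
    refine (hV N).trans ?_
    rw [← ENNReal.sum_add_tsum_compl F, ENNReal.ofReal_add ENNReal.toReal_nonneg (by positivity),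
      ENNReal.ofReal_toReal hDt, ENNReal.ofReal_mul (by positivity), ENNReal.ofReal_natCast]
    refine add_le_add (sum_le_sum (fun p _ => mul_le_mul_right (hsR N _) _)) ?_
    refine le_trans ?_ (mul_le_mul_left hF _)
    rw [← ENNReal.tsum_mul_right]
    refine ENNReal.tsum_le_tsum (fun p => mul_le_mul_right ?_ _)
    rw [Finset.sum_apply]
    exact (sum_le_card_nsmul _ _ 1 (fun n _ => sle n _)).trans (by simp)
  obtain ⟨n0, hn0⟩ := exists_nat_gt (100 * D.toReal / θ)
  have hn1 : 1 ≤ n0 := Nat.pos_of_ne_zero (by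
    rintro rfl
    have : 0 ≤ 100 * D.toReal / θ := by positivity
    simp at hn0; linarith)
  have key : ∀ n, n0 ≤ n → ∀ z, (M ^ n) (t (2 * n)) z ≤ 3 / 16 := by
    intro n hn z
    refine (hM n _ z).trans ((mul_le_mul_right (hV' _) _).trans ?_)
    rw [← ENNReal.ofReal_mul (by positivity), show (3 / 16 : ℝ≥0∞) = ENNReal.ofReal (3 / 16) by
      rw [ENNReal.ofReal_div_of_pos (by norm_num)]; simp]
    refine ENNReal.ofReal_le_ofReal ?_
    have h1 : (n0 : ℝ) ≤ n := by exact_mod_cast hn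
    rw [div_lt_iff₀ hθ] at hn0
    rw [div_mul_eq_mul_div, div_le_iff₀ (by positivity)]
    push_cast
    nlinarith [mul_le_mul_of_nonneg_right h1 hθ.le]
  have hrec : ∀ n, n0 ≤ n → ∀ z, s (2 * n) z ≤ s (2 * n + 2 * n) z + 3 / 16 * s n z := by
    intro n hn z
    have e1 : s (2 * n) = s (2 * n + 2 * n) + (K ^ n) ((K ^ n) (t (2 * n))) := by
      have e0 : ∀ f, (K ^ n) ((K ^ n) f) = (K ^ (2 * n)) f := fun f => by
        rw [← Module.End.mul_apply, ← pow_add, ← two_mul]
      have e3 : s (2 * n + 2 * n) = (K ^ (2 * n)) (s (2 * n)) := by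
        simp only [hs]; rw [pow_add, Module.End.mul_apply]
      rw [e0, e3, ← map_add, hst]
    rw [e1, Pi.add_apply]
    refine add_le_add le_rfl ?_
    have e2 : (K ^ n) (t (2 * n)) ≤ (3 / 16 : ℝ≥0∞) • (1 : G → ℝ≥0∞) := fun y =>
      (pow_le (kr_mo _ _) hKM n _ y).trans (by simpa using key n hn y)
    have := (show Mo K from kr_mo _ _).pow n _ _ e2 z
    rwa [map_smul] at this
  obtain ⟨z0, hz0⟩ : ∃ z0, t (2 * n0) z0 ≤ 1 / 4 := by
    by_contra h
    push Not at h
    have e1 : ∀ n, (M ^ n) 1 = 1 := by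
      intro n
      induction n with
      | zero => rfl
      | succ n ih =>
        rw [pow_succ', Module.End.mul_apply, ih]
        funext z; simpa [hM', kr_apply] using hw
    have e2 : (1 / 4 : ℝ≥0∞) • (1 : G → ℝ≥0∞) ≤ t (2 * n0) := fun y => by simpa using (h y).le
    have e3 := ((show Mo M from kr_mo _ _).pow n0 _ _ e2 0).trans (key n0 le_rfl 0)
    rw [map_smul, e1] at e3
    have := ENNReal.toReal_mono (ENNReal.div_ne_top (by simp) (by simp)) e3
    norm_num at this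
  refine grow (a := fun j => s (2 ^ j * n0) z0) (hR z0) (fun j => sle _ _) ?_ (fun j => ?_)
    (fun j => ?_)
  · have e1 := congrFun (hst (2 * n0)) z0
    have e2 : (3 / 4 : ℝ≥0∞) + 1 / 4 = 1 := by
      rw [ENNReal.div_add_div_same, show (3 + 1 : ℝ≥0∞) = 4 by norm_num,
        ENNReal.div_self (by simp) (by simp)]
    rw [pow_one]
    refine (ENNReal.add_le_add_iff_right (a := 1 / 4) (by simp)).1 ?_
    rw [e2]
    exact e1.ge.trans (add_le_add le_rfl hz0)
  · have := hrec (2 ^ j * n0) (Nat.le_mul_of_pos_left _ (by positivity)) z0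
    rwa [show 2 * (2 ^ j * n0) + 2 * (2 ^ j * n0) = 2 ^ (j + 2) * n0 by ring,
      show 2 * (2 ^ j * n0) = 2 ^ (j + 1) * n0 by ring] at this
  · refine le_trans ?_ (hsR (2 ^ j * n0) z0)
    rw [Finset.sum_apply]
    refine le_trans ?_ (card_nsmul_le_sum _ _ (s (2 ^ j * n0) z0)
      (fun n hn => santi _ _ (mem_range.1 hn).le z0))
    rw [card_range, nsmul_eq_mul]
    refine mul_le_mul_left ?_ _
    exact_mod_cast Nat.le_mul_of_pos_right _ hn1

end Vale.Agent.P147
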