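import Vale.Agent.P147.Ren

/-! P147: finite means from linear growth, level bounds, opposite and paired structures. -/

namespace Vale.Agent.P147

open scoped ENNReal Topology
open Filter

theorem pw1 {y t : ℝ≥0∞} (h : y + t = 1) (n : ℕ) : y ^ n + t * (n * y ^ n) ≤ 1 := by
  have hy : y ≤ 1 := h ▸ le_self_add
  induction n with
  | zero => simp
  | succ n ih =>
    calc y ^ (n + 1) + t * (((n + 1 : ℕ) : ℝ≥0∞) * y ^ (n + 1))
        = y * (y ^ n + t * (n * y ^ n)) + t * y ^ (n + 1) := by push_cast; ring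
      _ ≤ y * 1 + t * 1 := by gcongr; exact pow_le_one' hy _
      _ = 1 := by rw [mul_one, mul_one, h]

theorem pw2 {y t : ℝ≥0∞} (h : y + t = 1) (n : ℕ) : 1 ≤ y ^ n + t * n := by
  have hy : y ≤ 1 := h ▸ le_self_add
  induction n with
  | zero => simp
  | succ n ih =>
    calc (1 : ℝ≥0∞) = y * 1 + t := by rw [mul_one, h]
      _ ≤ y * (y ^ n + t * n) + t := by gcongr
      _ = y ^ (n + 1) + y * (t * n) + t := by ring
      _ ≤ y ^ (n + 1) + 1 * (t * n) + t := by gcongr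
      _ = y ^ (n + 1) + t * ((n + 1 : ℕ) : ℝ≥0∞) := by push_cast; ring

theorem root_le {a b c : ℝ≥0∞} (hc : c ≠ 0) (hb : b ≠ ⊤) (h : ∀ N : ℕ, c * b ^ (N + 1) ≤ a ^ (N + 1)) :
    b ≤ a := by
  by_contra hlt
  push Not at hlt
  have hb0 : b ≠ 0 := (pos_of_gt hlt).ne'
  have h1 : a / b < 1 := by rwa [ENNReal.div_lt_iff (Or.inl hb0) (Or.inl hb), one_mul]
  have h2 := (ENNReal.tendsto_pow_atTop_nhds_zero_of_lt_one h1).comp (tendsto_add_atTop_nat 1)
  refine hc (le_antisymm (ge_of_tendsto' h2 (fun N => ?_)) zero_le)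
  simp only [Function.comp, div_eq_mul_inv, mul_pow, ← ENNReal.inv_pow]
  rw [← div_eq_mul_inv, ENNReal.le_div_iff_mul_le (Or.inl (pow_ne_zero _ hb0))
    (Or.inl (ENNReal.pow_ne_top hb))]
  exact h N

namespace Gr

variable {X : Type} (g : Gr X)

theorem lap (h1 : ∑' i : g.I, g.wt i.1 = 1) (hu : ∀ k, g.S k (fun _ => 1) ≤ 1) (φ : X → ℕ)
    (hφ : ∀ (i : g.I) y, φ i.1 + φ y ≤ φ (g.cat i.1 y)) {y : ℝ≥0∞} (hy : y ≤ 1) (N : ℕ) :
    ∀ (k : ℕ) (Y : ℝ≥0∞), k * g.S k (fun x => min 1 (y ^ φ x * Y)) ≤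
      N * (∑' i : g.I, g.wt i.1 * g.ht i.1) + k * ((∑' i : g.I, g.wt i.1 * y ^ φ i.1) ^ N * Y) := by
  induction N with
  | zero =>
    intro k Y
    simp only [Nat.cast_zero, zero_mul, zero_add, pow_zero, one_mul]
    gcongr
    exact (g.S_mono k (fun x => (min_le_right _ _).trans
      (mul_le_of_le_one_left' (pow_le_one' hy _)))).trans (g.S_const (hu k) Y)
  | succ N ih =>
    intro k Y
    rcases Nat.eq_zero_or_pos k with rfl | hk
    · simp
    set m := ∑' i : g.I, g.wt i.1 * g.ht i.1 with hm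
    set ρ := ∑' i : g.I, g.wt i.1 * y ^ φ i.1 with hρ
    rw [g.S_pos hk, ← ENNReal.tsum_mul_left]
    calc _ ≤ ∑' i : g.I, (N * m * g.wt i.1 + g.wt i.1 * g.ht i.1 +
          k * (ρ ^ N * Y) * (g.wt i.1 * y ^ φ i.1)) := by
          refine ENNReal.tsum_le_tsum (fun i => ?_)
          split_ifs with h
          swap
          · simp
          have e1 : g.S (k - g.ht i.1) (fun x => min 1 (y ^ φ (g.cat i.1 x) * Y)) ≤
              g.S (k - g.ht i.1) (fun x => min 1 (y ^ φ x * (y ^ φ i.1 * Y))) := by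
            refine g.S_mono _ (fun x => min_le_min_left _ ?_)
            rw [← mul_assoc, ← pow_add, add_comm]
            exact mul_le_mul_left (pow_le_pow_right_of_le_one' hy (hφ i x)) _
          have e2 := ih (k - g.ht i.1) (y ^ φ i.1 * Y)
          have e3 : g.S (k - g.ht i.1) (fun x => min 1 (y ^ φ x * (y ^ φ i.1 * Y))) ≤ 1 :=
            (g.S_mono _ (fun x => min_le_left _ _)).trans (hu _)
          have e4 : (k : ℝ≥0∞) = ((k - g.ht i.1 : ℕ) : ℝ≥0∞) + g.ht i.1 := by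
            rw [← Nat.cast_add, Nat.sub_add_cancel h]
          have e5 : ((k - g.ht i.1 : ℕ) : ℝ≥0∞) ≤ k := by exact_mod_cast Nat.sub_le _ _
          generalize g.S (k - g.ht i.1) (fun x => min 1 (y ^ φ x * (y ^ φ i.1 * Y))) = T at e1 e2 e3
          calc _ ≤ k * (g.wt i.1 * T) := by gcongr
            _ = g.wt i.1 * (((k - g.ht i.1 : ℕ) : ℝ≥0∞) * T + g.ht i.1 * T) := by
              conv_lhs => rw [e4]
              ring
            _ ≤ g.wt i.1 * ((N * m + k * (ρ ^ N * (y ^ φ i.1 * Y))) + g.ht i.1 * 1) := by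
              gcongr
              exact e2.trans (by gcongr)
            _ = _ := by ring
      _ = _ := by
          rw [ENNReal.tsum_add, ENNReal.tsum_add, ENNReal.tsum_mul_left, ENNReal.tsum_mul_left, h1,
            ← hm, ← hρ]
          push_cast
          ring

theorem lln {δ : ℝ≥0∞} (hδ : δ ≠ 0) (hu : ∀ k, g.S k (fun _ => 1) ≤ 1) (φ : X → ℕ)
    (hφ : ∀ (i : g.I) y, φ i.1 + φ y ≤ φ (g.cat i.1 y)) (C : ℕ)
    (hC : ∀ k, δ ≤ g.S k (fun x => if φ x ≤ C * (k + 1) then 1 else 0)) :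
    ∑' i : g.I, g.wt i.1 * φ i.1 ≠ ⊤ := by
  have hu' : ∀ k, δ ≤ g.S k (fun _ => 1) ∧ g.S k (fun _ => 1) ≤ 1 := fun k =>
    ⟨(hC k).trans (g.S_mono k (fun x => by split_ifs <;> simp)), hu k⟩
  have h1 := g.sum_one hδ hu'
  have hδ1 : δ ≠ ⊤ := ne_top_of_le_ne_top ENNReal.one_ne_top ((hu' 0).1.trans (hu' 0).2)
  have hm : ∑' i : g.I, g.wt i.1 * g.ht i.1 ≠ ⊤ := by
    refine g.fin_mean hδ ENNReal.one_ne_top hu' (fun x => g.ht x)
      (fun i y => by rw [g.ht_cat]; simp) (fun k => ?_)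
    have : g.S k (fun x => g.ht x) = g.S k (fun _ => k) := by
      unfold S; congr 1; funext x; split_ifs with h <;> simp [h]
    rw [this, one_mul]
    exact (g.S_const (hu k) _).trans le_self_add
  set m := ∑' i : g.I, g.wt i.1 * g.ht i.1 with hm'
  obtain ⟨K, hK⟩ := ENNReal.exists_nat_mul_gt (a := δ / 2) (b := m)
    (ENNReal.div_ne_zero.2 ⟨hδ, by simp⟩) hm
  have hK0 : K ≠ 0 := by rintro rfl; simp at hK
  refine ne_top_of_le_ne_top (ENNReal.natCast_ne_top (C * K)) (abel _ (fun i => φ i.1) _ ?_)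
  intro y hy0 hy
  have hyt : y ≠ ⊤ := ne_top_of_lt hy
  set ρ := ∑' i : g.I, g.wt i.1 * y ^ φ i.1 with hρ
  have h2 : y ^ (C * K) ≤ ρ := by
    refine root_le (c := δ / 2 * y ^ C) (mul_ne_zero (ENNReal.div_ne_zero.2 ⟨hδ, by simp⟩)
      (pow_ne_zero _ hy0.ne')) (ENNReal.pow_ne_top hyt) (fun N => ?_)
    set k := K * (N + 1) with hk
    have e1 := g.lap h1 hu φ hφ hy.le (N + 1) k (y ^ (C * (k + 1)))⁻¹
    have e0 : y ^ (C * (k + 1)) * (y ^ (C * (k + 1)))⁻¹ = 1 :=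
      ENNReal.mul_inv_cancel (pow_ne_zero _ hy0.ne') (ENNReal.pow_ne_top hyt)
    have e2 : δ ≤ g.S k (fun x => min 1 (y ^ φ x * (y ^ (C * (k + 1)))⁻¹)) := by
      refine (hC k).trans (g.S_mono k (fun x => ?_))
      split_ifs with h
      · refine le_min le_rfl ?_
        rw [← e0]
        exact mul_le_mul_left (pow_le_pow_right_of_le_one' hy.le h) _
      · exact zero_le
    have e3 : (k : ℝ≥0∞) * (δ / 2) + k * (δ / 2) ≤
        k * (δ / 2) + k * (ρ ^ (N + 1) * (y ^ (C * (k + 1)))⁻¹) := by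
      rw [← mul_add, ENNReal.add_halves]
      refine (mul_le_mul_right e2 _).trans (e1.trans ?_)
      refine add_le_add_left ?_ _
      rw [hk]; push_cast
      rw [mul_comm (K : ℝ≥0∞), mul_assoc]
      exact mul_le_mul_right hK.le _
    have hk0 : (k : ℝ≥0∞) ≠ 0 := by rw [hk]; simp [hK0]
    have e4 := (ENNReal.mul_le_mul_iff_right hk0 (ENNReal.natCast_ne_top k)).1
      ((ENNReal.add_le_add_iff_left (ENNReal.mul_ne_top (ENNReal.natCast_ne_top k)
        (ENNReal.div_ne_top hδ1 (by simp)))).1 e3)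
    calc δ / 2 * y ^ C * (y ^ (C * K)) ^ (N + 1) = δ / 2 * y ^ (C * (k + 1)) := by
          rw [hk]; ring
      _ ≤ ρ ^ (N + 1) * (y ^ (C * (k + 1)))⁻¹ * y ^ (C * (k + 1)) := by gcongr
      _ = ρ ^ (N + 1) := by rw [mul_assoc, mul_comm _⁻¹, e0, mul_one]
  have ht : y + (1 - y) = 1 := add_tsub_cancel_of_le hy.le
  have h3 : ρ + (1 - y) * ∑' i : g.I, g.wt i.1 * φ i.1 * y ^ φ i.1 ≤ 1 := by
    rw [hρ, ← ENNReal.tsum_mul_left, ← ENNReal.tsum_add]
    conv_rhs => rw [← h1]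
    refine ENNReal.tsum_le_tsum (fun i => ?_)
    calc _ = g.wt i.1 * (y ^ φ i.1 + (1 - y) * (φ i.1 * y ^ φ i.1)) := by ring
      _ ≤ _ := mul_le_of_le_one_right' (pw1 ht _)
  have h4 := h3.trans ((pw2 ht (C * K)).trans (add_le_add_left h2 _))
  have hρ1 : ρ ≠ ⊤ := ne_top_of_le_ne_top ENNReal.one_ne_top (le_self_add.trans h3)
  exact (ENNReal.mul_le_mul_iff_right (tsub_pos_of_lt hy).ne' (by simp)).1
    ((ENNReal.add_le_add_iff_left hρ1).1 h4)

theorem lev (h1 : ∑' i : g.I, g.wt i.1 ≤ 1) (hu : ∀ k, g.S k (fun _ => 1) ≤ 1)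
    (ψ : X → ℕ → ℝ≥0∞) (h0 : ∀ j, ψ g.nil j = 0)
    (hψ : ∀ (i : g.I) y j, ψ (g.cat i.1 y) j ≤
      ψ i.1 j + if g.ht i.1 ≤ j then ψ y (j - g.ht i.1) else 0) (k : ℕ) :
    ∀ j, g.S k (fun x => ψ x j) ≤ ∑ j' ∈ Finset.range (j + 1), ∑' i : g.I, g.wt i.1 * ψ i.1 j' := by
  induction k using Nat.strong_induction_on with
  | _ k ih =>
    intro j
    rcases Nat.eq_zero_or_pos k with rfl | hk
    · simp [g.S_zero, h0]
    set A := ∑ j' ∈ Finset.range j, ∑' i : g.I, g.wt i.1 * ψ i.1 j' with hA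
    rw [g.S_pos hk, Finset.sum_range_succ, ← hA]
    calc _ ≤ ∑' i : g.I, (A * g.wt i.1 + g.wt i.1 * ψ i.1 j) := by
          refine ENNReal.tsum_le_tsum (fun i => ?_)
          rw [mul_comm A, ← mul_add]
          refine mul_le_mul_right ?_ _
          split_ifs with h
          swap
          · exact zero_le
          have hi := i.2.1
          refine (g.S_mono _ (fun x => hψ i x j)).trans ?_
          rw [g.S_add, add_comm]
          refine add_le_add ?_ (g.S_const (hu _) _)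
          split_ifs with h2
          · refine (ih _ (by omega) _).trans ?_
            exact Finset.sum_le_sum_of_subset (Finset.range_mono (by omega))
          · exact (g.S_const (hu _) _).trans zero_le
      _ ≤ _ := by
          rw [ENNReal.tsum_add, ENNReal.tsum_mul_left]
          exact add_le_add_left (mul_le_of_le_one_right' h1) _

/-- level occupation bounds from linear growth -/
theorem side {δ : ℝ≥0∞} (hδ : δ ≠ 0) (hu : ∀ k, g.S k (fun _ => 1) ≤ 1) (φ : X → ℕ)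
    (hφ : ∀ (i : g.I) y, φ i.1 + φ y ≤ φ (g.cat i.1 y)) (C : ℕ)
    (hC : ∀ k, δ ≤ g.S k (fun x => if φ x ≤ C * (k + 1) then 1 else 0))
    (ψ : X → ℕ → ℝ≥0∞) (h0 : ∀ j, ψ g.nil j = 0)
    (hψ : ∀ (i : g.I) y j, ψ (g.cat i.1 y) j ≤
      ψ i.1 j + if g.ht i.1 ≤ j then ψ y (j - g.ht i.1) else 0)
    (hs : ∀ x, ∑' j, ψ x j ≤ φ x) : ∃ a, a ≠ ⊤ ∧ ∀ k j, g.S k (fun x => ψ x j) ≤ a := by
  have hu' : ∀ k, δ ≤ g.S k (fun _ => 1) ∧ g.S k (fun _ => 1) ≤ 1 := fun k =>
    ⟨(hC k).trans (g.S_mono k (fun x => by split_ifs <;> simp)), hu k⟩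
  refine ⟨_, g.lln hδ hu φ hφ C hC, fun k j =>
    (g.lev (g.sum_one hδ hu').le hu ψ h0 hψ k j).trans ((ENNReal.sum_le_tsum _).trans ?_)⟩
  rw [ENNReal.tsum_comm]
  exact ENNReal.tsum_le_tsum (fun i => by
    rw [ENNReal.tsum_mul_left]; exact mul_le_mul_right (hs _) _)

/-- the opposite structure -/
def op : Gr X where
  cat a b := g.cat b a
  nil := g.nil
  ht := g.ht
  wt := g.wt
  assoc a b c := (g.assoc c b a).symm
  cat_nil := g.nil_cat
  nil_cat := g.cat_nil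
  ht_cat a b := by rw [g.ht_cat, add_comm]
  ht_zero := g.ht_zero
  wt_nil := g.wt_nil
  wt_cat a b := by rw [g.wt_cat, mul_comm]
  equi a b a' b' h hl := by
    have h1 := congrArg g.ht h
    rw [g.ht_cat, g.ht_cat] at h1
    obtain ⟨m, h2, h3⟩ := g.equi _ _ _ _ h.symm (by omega)
    exact ⟨m, h3, h2⟩

variable {Y : Type} (g' : Gr Y)

abbrev PX : Type := {p : X × Y // g.ht p.1 = g'.ht p.2}

/-- pairs of equal height -/
noncomputable def pair : Gr (g.PX g') where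
  cat a b := ⟨(g.cat a.1.1 b.1.1, g'.cat a.1.2 b.1.2), by rw [g.ht_cat, g'.ht_cat, a.2, b.2]⟩
  nil := ⟨(g.nil, g'.nil), by rw [g.ht_nil, g'.ht_nil]⟩
  ht a := g.ht a.1.1
  wt a := g.wt a.1.1 * g'.wt a.1.2
  assoc a b c := by simp only [g.assoc, g'.assoc]
  cat_nil a := by simp only [g.cat_nil, g'.cat_nil]
  nil_cat a := by simp only [g.nil_cat, g'.nil_cat]
  ht_cat a b := g.ht_cat _ _
  ht_zero a h := Subtype.ext (Prod.ext (g.ht_zero _ h) (g'.ht_zero _ (a.2.symm.trans h)))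
  wt_nil := by simp [g.wt_nil, g'.wt_nil]
  wt_cat a b := by simp only [g.wt_cat, g'.wt_cat]; ring
  equi a b a' b' h hl := by
    have h0 := congrArg Subtype.val h
    obtain ⟨m, h1, h2⟩ := g.equi _ _ _ _ (congrArg Prod.fst h0) hl
    obtain ⟨m', h3, h4⟩ := g'.equi _ _ _ _ (congrArg Prod.snd h0) (by rw [← a.2, ← a'.2]; exact hl)
    have h5 : g.ht m = g'.ht m' := by
      have e1 := congrArg g.ht h1
      have e2 := congrArg g'.ht h3
      have e3 := a.2
      have e4 := a'.2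
      rw [g.ht_cat] at e1
      rw [g'.ht_cat] at e2
      omega
    exact ⟨⟨(m, m'), h5⟩, Subtype.ext (Prod.ext h1 h3), Subtype.ext (Prod.ext h2 h4)⟩

theorem S_pair (k : ℕ) (f : X → ℝ≥0∞) (f' : Y → ℝ≥0∞) :
    (g.pair g').S k (fun x => f x.1.1 * f' x.1.2) = g.S k f * g'.S k f' := by
  unfold S
  rw [← ENNReal.tsum_mul_right]
  simp only [← ENNReal.tsum_mul_left]
  rw [← ENNReal.tsum_prod, ← Subtype.val_injective.tsum_eq (f := fun p : X × Y =>
    (if g.ht p.1 = k then g.wt p.1 * f p.1 else 0) * if g'.ht p.2 = k then g'.wt p.2 * f' p.2 else 0)]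
  · congr 1
    funext x
    have := x.2
    by_cases h : g.ht x.1.1 = k
    · rw [if_pos (show (g.pair g').ht x = k from h), if_pos h, if_pos (by omega)]
      simp only [pair]; ring
    · rw [if_neg (show ¬ (g.pair g').ht x = k from h), if_neg h, zero_mul]
  · intro p hp
    have h1 : g.ht p.1 = k := by by_contra h; simp [h] at hp
    have h2 : g'.ht p.2 = k := by by_contra h; simp [h] at hp
    exact ⟨⟨p, h1.trans h2.symm⟩, rfl⟩

theorem S_mono' (k : ℕ) {f f' : X → ℝ≥0∞} (h : ∀ x, g.ht x = k → f x ≤ f' x) :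
    g.S k f ≤ g.S k f' :=
  ENNReal.tsum_le_tsum (fun x => by
    split_ifs with hx <;> [exact mul_le_mul_right (h x hx) _; exact le_rfl])

theorem irr_one {x : X} (h : g.ht x = 1) : g.Irr x :=
  ⟨by omega, fun a b e => by rw [e, g.ht_cat] at h; omega⟩

theorem S_sum (k : ℕ) {ι : Type} (s : Finset ι) (f : ι → X → ℝ≥0∞) :
    g.S k (fun x => ∑ j ∈ s, f j x) = ∑ j ∈ s, g.S k (f j) := by
  classical
  induction s using Finset.induction_on with
  | empty => simp [S]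
  | insert a s ha ih => simp only [Finset.sum_insert ha, g.S_add, ih]

end Gr

end Vale.Agent.P147
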