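import Vale.Agent.P147.Path
import Vale.Agent.P147.Ren2
import Vale.Agent.P147.Core

/-! P147: bridges, the turning inequality and the combinatorial contradiction. -/

namespace Vale.Agent.P147

open MeasureTheory ProbabilityTheory Filter Finset
open scoped ENNReal

variable {d : ℕ}

def Br (L : Site d →+ ℤ) (l : List (Step d)) : Prop := ∀ x ∈ dep 0 l, 0 ≤ L x ∧ L x < L (pos l)

section
variable {L : Site d →+ ℤ} {a b : List (Step d)}

theorem Br.pos_of_ne (h : Br L a) (ha : a ≠ []) : 0 < L (pos a) := by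
  simpa using (h 0 (self_mem_dep 0 ha)).2

theorem Br.nonneg (h : Br L a) : 0 ≤ L (pos a) := by
  by_cases ha : a = []
  · simp [ha]
  · exact (h.pos_of_ne ha).le

theorem Br.mem (h : Br L a) {x v : Site d} (hv : v ∈ dep x a) :
    L x ≤ L v ∧ L v < L x + L (pos a) := by
  have := h _ (mem_dep.1 hv)
  rw [map_sub] at this
  omega

theorem Br.append (ha : Br L a) (hb : Br L b) : Br L (a ++ b) := by
  intro x hx
  have h1 := ha.nonneg
  have h2 := hb.nonneg
  rw [dep_append, zero_add, mem_union] at hx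
  rw [pos_append, map_add]
  rcases hx with hx | hx
  · have := ha x hx; omega
  · have := hb.mem hx; omega

theorem Br.disj (ha : Br L a) (hb : Br L b) (x : Site d) :
    Disjoint (dep x a) (dep (x + pos a) b) :=
  Finset.disjoint_left.2 (fun v h1 h2 => by
    have := ha.mem h1
    have := hb.mem h2
    rw [map_add] at this
    omega)

theorem Br.nil_of (h : Br L (a ++ b)) (hl : L (pos (a ++ b)) ≤ L (pos a)) : b = [] := by
  by_contra hb
  have := h _ (pos_mem_dep a hb)
  omega

end

abbrev BX (L : Site d →+ ℤ) (M : ℕ) : Type := {l : List (Step d) // Br L l ∧ (M : ℤ) ∣ L (pos l)}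

def hgt {L : Site d →+ ℤ} {M : ℕ} (x : BX L M) : ℕ := (L (pos x.1) / M).toNat

theorem hgt_eq {L : Site d →+ ℤ} {M : ℕ} (x : BX L M) : L (pos x.1) = M * hgt x := by
  rw [hgt, Int.toNat_of_nonneg (Int.ediv_nonneg x.2.1.nonneg (by positivity)),
    Int.mul_ediv_cancel' x.2.2]

variable (μ : Measure (Step d → ℝ)) [IsProbabilityMeasure μ]

noncomputable def gr (L : Site d →+ ℤ) {M : ℕ} (hM : 0 < M) : Gr (BX L M) where
  cat a b := ⟨a.1 ++ b.1, a.2.1.append b.2.1, by rw [pos_append, map_add]; exact a.2.2.add b.2.2⟩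
  nil := ⟨[], fun x hx => by simp [dep] at hx, by simp⟩
  ht := hgt
  wt a := pw μ a.1
  assoc a b c := Subtype.ext (List.append_assoc _ _ _)
  cat_nil a := Subtype.ext (List.append_nil _)
  nil_cat a := rfl
  ht_cat a b := by
    have h1 := hgt_eq a
    have h2 := hgt_eq b
    have h3 := hgt_eq (⟨a.1 ++ b.1, a.2.1.append b.2.1, by
      rw [pos_append, map_add]; exact a.2.2.add b.2.2⟩ : BX L M)
    simp only [pos_append, map_add, h1, h2, ← mul_add] at h3
    exact_mod_cast (mul_left_cancel₀ (by exact_mod_cast hM.ne') h3).symm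
  ht_zero a h := by
    refine Subtype.ext ?_
    by_contra ha
    have := a.2.1.pos_of_ne ha
    rw [hgt_eq, h] at this
    simp at this
  wt_nil := pw_nil μ
  wt_cat a b := pw_append μ (by simpa using a.2.1.disj b.2.1 0)
  equi a b a' b' h hl := by
    have hl' : L (pos a.1) ≤ L (pos a'.1) := by rw [hgt_eq, hgt_eq]; gcongr
    rcases List.append_eq_append_iff.1 (congrArg Subtype.val h) with ⟨m, h1, h2⟩ | ⟨m, h1, h2⟩
    · refine ⟨⟨m, fun x hx => ⟨(b.2.1 x (by rw [h2, dep_append]; exact mem_union_left _ hx)).1, ?_⟩,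
        ?_⟩, Subtype.ext h1, Subtype.ext h2⟩
      · have := a'.2.1 (x + pos a.1) (by
          rw [h1, dep_append, zero_add]; exact mem_union_right _ (mem_dep.2 (by simpa using hx)))
        rw [h1, pos_append, map_add, map_add] at this
        omega
      · have := a'.2.2
        rw [h1, pos_append, map_add] at this
        exact (dvd_add_right a.2.2).1 this
    · have hm : m = [] := Br.nil_of (L := L) (a := a'.1) (h1 ▸ a.2.1) (h1 ▸ hl')
      subst hm
      exact ⟨⟨[], fun x hx => by simp [dep] at hx, by simp⟩, Subtype.ext (by simpa using h1.symm),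
        Subtype.ext (by simpa using h2.symm)⟩

variable {μ}

theorem gr_u (hd : 0 < d) {P : Measure (ℕ → Step d)} (hP : IsAnnealed μ P) (L : Site d →+ ℤ)
    {M : ℕ} (hM : 0 < M) (k : ℕ) : (gr μ L hM).S k (fun _ => 1) ≤ 1 := by
  simp only [Gr.S, mul_one]
  refine free_sum' hd hP (fun x : BX L M => hgt x = k) Subtype.val
    (fun a b _ _ e => Subtype.ext e) (fun a b m ha hb e => ?_)
  exact Br.nil_of (L := L) (a := a.1) (e ▸ b.2.1) (by rw [← e, hgt_eq, hgt_eq, ha, hb])

/-- block of levels below zero -/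
def blk (L : Site d →+ ℤ) (M : ℕ) (v : Site d) : ℤ := (-1 - L v) / M

noncomputable def cnt (L : Site d →+ ℤ) (M : ℕ) (A : Finset (Site d)) (j : ℕ) : ℝ≥0∞ :=
  ∑ v ∈ A, if blk L M v = j then 1 else 0

section
variable {L : Site d →+ ℤ} {M : ℕ}

theorem blk_add (hM : 0 < M) {a : Site d} {h : ℕ} (ha : L a = -(M * h)) (v : Site d) :
    blk L M (v + a) = blk L M v + h := by
  rw [blk, blk, map_add, ha, ← Int.add_mul_ediv_left _ _ (by exact_mod_cast hM.ne')]
  congr 1; ring

theorem blk_bd (hM : 0 < M) {v : Site d} {k : ℕ} (h : -(M * k : ℤ) ≤ L v ∧ L v < 0) :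
    0 ≤ blk L M v ∧ blk L M v < k :=
  ⟨Int.ediv_nonneg (by omega) (by positivity), Int.ediv_lt_of_lt_mul (by exact_mod_cast hM) (by
    rw [mul_comm]; omega)⟩

theorem cnt_cat (hM : 0 < M) {A B : Finset (Site d)} {a : Site d} {h k : ℕ} (ha : L a = -(M * h))
    (hB : ∀ v ∈ B, -(M * k : ℤ) ≤ L v ∧ L v < 0) (j : ℕ) :
    cnt L M (A ∪ B.map (addRightEmbedding a)) j ≤
      cnt L M A j + if h ≤ j then cnt L M B (j - h) else 0 := by
  refine (le_self_add.trans_eq sum_union_inter).trans (add_le_add le_rfl ?_)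
  simp only [sum_map, addRightEmbedding_apply, blk_add hM ha]
  split_ifs with hj
  · refine sum_le_sum (fun v _ => le_of_eq (if_congr ?_ rfl rfl))
    omega
  · refine le_of_eq (sum_eq_zero (fun v hv => if_neg ?_))
    have := blk_bd hM (hB v hv)
    omega

theorem cnt_sum (A : Finset (Site d)) : ∑' j, cnt L M A j ≤ A.card := by
  unfold cnt
  rw [Summable.tsum_finsetSum (fun _ _ => ENNReal.summable), card_eq_sum_ones]
  push_cast
  refine sum_le_sum (fun v _ => ?_)
  rw [tsum_eq_single (blk L M v).toNat (fun j hj => if_neg (by omega))]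
  split_ifs <;> simp

theorem memU (x : BX L M) {v : Site d} (hv : v ∈ dep (-pos x.1) x.1) :
    -(M * hgt x : ℤ) ≤ L v ∧ L v < 0 := by
  have := x.2.1.mem hv
  rw [map_neg, hgt_eq] at this
  omega

theorem memD (y : BX (-L) M) {w v : Site d} (hw : L w = -1) (hv : v ∈ dep w y.1) :
    -(M * hgt y : ℤ) ≤ L v ∧ L v < 0 := by
  have := y.2.1.mem hv
  rw [hgt_eq] at this
  simp only [AddMonoidHom.neg_apply] at this
  omega

theorem posD (y : BX (-L) M) : L (pos y.1) = -(M * hgt y) := by
  have := hgt_eq y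
  simp only [AddMonoidHom.neg_apply] at this
  omega

theorem depU (i y : List (Step d)) : dep (-pos (y ++ i)) (y ++ i) =
    dep (-pos i) i ∪ (dep (-pos y) y).map (addRightEmbedding (-pos i)) := by
  rw [dep_append, union_comm, ← dep_add, pos_append]
  congr 2 <;> abel

theorem depD (w : Site d) (i y : List (Step d)) : dep w (i ++ y) =
    dep w i ∪ (dep w y).map (addRightEmbedding (pos i)) := by
  rw [dep_append, ← dep_add]

end

/-- linear growth of the range along bridges of all heights -/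
def Good (μ : Measure (Step d → ℝ)) [IsProbabilityMeasure μ] (L : Site d →+ ℤ) {M : ℕ}
    (hM : 0 < M) : Prop := ∃ (δ : ℝ≥0∞) (C : ℕ), δ ≠ 0 ∧ ∀ k,
  δ ≤ (gr μ L hM).S k (fun x => if (dep 0 x.1).card ≤ C * (k + 1) then 1 else 0)

theorem card_cat {L : Site d →+ ℤ} {a b : List (Step d)} (ha : Br L a) (hb : Br L b) :
    (dep 0 (a ++ b)).card = (dep 0 a).card + (dep 0 b).card := by
  rw [dep_append, card_union_of_disjoint (ha.disj hb 0), card_dep (0 + pos a)]

theorem turn (hd : 0 < d) {P : Measure (ℕ → Step d)} (hP : IsAnnealed μ P) {L : Site d →+ ℤ}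
    {M : ℕ} (hM : 0 < M) {w : Site d} (hw : L w = -1) {c : List (Step d)} (hc : c ≠ [])
    (hcw : pos c = w) (hc0 : ∀ x ∈ dep 0 c, 0 ≤ L x) :
    (∑' x : (gr μ L hM).op.PX (gr μ (-L) hM), pw μ x.1.1.1 * pw μ x.1.2.1 *
      if Disjoint (dep (-pos x.1.1.1) x.1.1.1) (dep w x.1.2.1) then 1 else 0) * pw μ c ≤ 1 := by
  obtain ⟨y, hy, hy'⟩ := exists_max_image (dep 0 c) L ⟨0, self_mem_dep 0 hc⟩
  have hpos : ∀ x : (gr μ L hM).op.PX (gr μ (-L) hM), L (pos x.1.2.1) = -L (pos x.1.1.1) := by
    intro x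
    have : hgt x.1.1 = hgt x.1.2 := x.2
    rw [posD, hgt_eq, this]
  have hlev : ∀ x : (gr μ L hM).op.PX (gr μ (-L) hM), ∀ v ∈ dep 0 (x.1.1.1 ++ c ++ x.1.2.1),
      0 ≤ L v ∧ L v ≤ L (pos x.1.1.1) + L y := by
    intro x v hv
    have h0 := hc0 y hy
    simp only [dep_append, zero_add, mem_union] at hv
    rcases hv with (hv | hv) | hv
    · have := x.1.1.2.1 v hv; omega
    · have h1 := hc0 _ (mem_dep.1 hv)
      have h2 := hy' _ (mem_dep.1 hv)
      have h3 := x.1.1.2.1.nonneg
      rw [map_sub] at h1 h2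
      omega
    · have h1 := x.1.2.2.1.mem hv
      have h2 := hpos x
      simp only [AddMonoidHom.neg_apply, pos_append, map_add, hcw] at h1
      omega
  rw [← ENNReal.tsum_mul_right]
  refine le_trans (ENNReal.tsum_le_tsum (fun x => ?_)) (free_sum' hd hP
    (fun x : (gr μ L hM).op.PX (gr μ (-L) hM) =>
      Disjoint (dep (-pos x.1.1.1) x.1.1.1) (dep w x.1.2.1))
    (fun x => x.1.1.1 ++ c ++ x.1.2.1) (fun a b _ _ e => ?_) (fun a b m _ _ e => ?_))
  · split_ifs with h
    · rw [pw_append, pw_append]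
      · exact le_of_eq (by ring)
      · refine Finset.disjoint_left.2 (fun v h1 h2 => ?_)
        have h3 := x.1.1.2.1 v h1
        have h4 := hc0 _ (mem_dep.1 h2)
        rw [map_sub] at h4
        omega
      · refine Finset.disjoint_left.2 (fun v h1 h2 => ?_)
        rw [dep_append, zero_add, mem_union] at h1
        rw [pos_append, hcw] at h2
        rcases h1 with h1 | h1
        · have h' := Finset.disjoint_left.1 h
          refine @h' (v - pos x.1.1.1) (mem_dep.2 (by simpa using h1)) (mem_dep.2 ?_)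
          convert mem_dep.1 h2 using 1
          abel
        · have h3 := x.1.2.2.1.mem h2
          have h4 := hc0 _ (mem_dep.1 h1)
          simp only [AddMonoidHom.neg_apply, map_add, map_sub] at h3 h4
          omega
    · simp
  · have key : ∀ a b : (gr μ L hM).op.PX (gr μ (-L) hM),
        a.1.1.1 ++ c ++ a.1.2.1 = b.1.1.1 ++ c ++ b.1.2.1 → L (pos a.1.1.1) ≤ L (pos b.1.1.1) := by
      intro a b e
      have := hlev b (y + pos a.1.1.1) (by
        rw [← e, dep_append, dep_append, zero_add]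
        exact mem_union_left _ (mem_union_right _ (mem_dep.2 (by simpa using hy))))
      rw [map_add] at this
      omega
    have h1 : a.1.1.1 = b.1.1.1 := by
      have k1 := key a b e
      have k2 := key b a e.symm
      rw [List.append_assoc, List.append_assoc] at e
      rcases List.append_eq_append_iff.1 e with ⟨m, h1, -⟩ | ⟨m, h1, -⟩
      · have hm : m = [] := Br.nil_of (L := L) (a := a.1.1.1) (h1 ▸ b.1.1.2.1) (h1 ▸ k2)
        simpa [hm] using h1.symm
      · have hm : m = [] := Br.nil_of (L := L) (a := b.1.1.1) (h1 ▸ a.1.1.2.1) (h1 ▸ k1)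
        simpa [hm] using h1
    rw [h1] at e
    exact Subtype.ext (Prod.ext (Subtype.ext h1) (Subtype.ext (List.append_cancel_left e)))
  · by_contra hm
    have h1 := (hlev b _ (e ▸ pos_mem_dep _ hm)).1
    have h2 := hpos a
    simp only [pos_append, map_add, hcw] at h1
    omega

end Vale.Agent.P147
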