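import Mathlib

/-! P147: random walk in an iid random environment on `ℤ^d`. -/

namespace Vale.Agent.P147

open MeasureTheory Filter

/-- the unit steps `± e_i`: `(i, true)` is `e_i` and `(i, false)` is `- e_i` -/
abbrev Step (d : ℕ) : Type := Fin d × Bool

/-- the lattice vector of a step -/
def vec {d : ℕ} (s : Step d) : Fin d → ℤ := Pi.single s.1 (if s.2 then 1 else -1)

/-- position `X_n` of the walk started at the origin with step sequence `ξ` -/
def walk {d : ℕ} (ξ : ℕ → Step d) (n : ℕ) : Fin d → ℤ := ∑ j ∈ Finset.range n, vec (ξ j)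

/-- number of distinct sites among `X_0, …, X_n` -/
def rng {d : ℕ} (ξ : ℕ → Step d) (n : ℕ) : ℕ := ((Finset.range (n + 1)).image (walk ξ)).card

/-- `P` is the annealed law of the step sequence for the iid environment with row law `μ`: each
cylinder has the environment average of the product of the transition probabilities. -/
def IsAnnealed {d : ℕ} (μ : Measure (Step d → ℝ)) [IsProbabilityMeasure μ]
    (P : Measure (ℕ → Step d)) : Prop :=
  IsProbabilityMeasure P ∧ ∀ (ζ : ℕ → Step d) (n : ℕ), P {ξ | ∀ j < n, ξ j = ζ j} =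
    ∫⁻ ω, ∏ j ∈ Finset.range n, ENNReal.ofReal (ω (walk ζ j) (ζ j))
      ∂(Measure.infinitePi fun _ : Fin d → ℤ => μ)

/-- escape in direction `ℓ` with range at most linear in the height `X_n · ℓ` -/
def LinEsc {d : ℕ} (ℓ : Fin d → ℝ) : Set (ℕ → Step d) :=
  {ξ | Tendsto (fun n => ∑ i, (walk ξ n i : ℝ) * ℓ i) atTop atTop ∧
    ∃ C : ℝ, ∀ᶠ n in atTop, (rng ξ n : ℝ) ≤ C * ∑ i, (walk ξ n i : ℝ) * ℓ i}

end Vale.Agent.P147
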