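import Vale.Agent.P147.Path

/-! P147: existence of the annealed law. -/

namespace Vale.Agent.P147

open MeasureTheory ProbabilityTheory Filter Finset Preorder
open scoped ENNReal

variable {d : ℕ} {μ : Measure (Step d → ℝ)} [IsProbabilityMeasure μ]

theorem pw_sum (hE : Ell μ) (l : List (Step d)) : ∑ s, pw μ (l ++ [s]) = pw μ l := by
  unfold pw
  rw [← lintegral_finsetSum _ (fun s _ => W_meas _ _)]
  refine lintegral_congr_ae ?_
  filter_upwards [ae_env hE] with ω hω
  simp only [W_append, W, mul_one, ← mul_sum]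
  rw [← ENNReal.ofReal_sum_of_nonneg (fun s _ => ((hω _).1 s).le), (hω _).2]
  simp

theorem pw_top (hE : Ell μ) (l : List (Step d)) : pw μ l ≠ ⊤ := by
  have := pw_le hE l []
  rw [List.append_nil, pw_nil] at this
  exact ne_top_of_le_ne_top ENNReal.one_ne_top this

def hist (s0 : Step d) (n : ℕ) (y : Π _ : Iic n, Step d) : List (Step d) :=
  seg (fun j => if h : j + 1 ≤ n then y ⟨j + 1, mem_Iic.2 h⟩ else s0) n

noncomputable def kap (μ : Measure (Step d → ℝ)) [IsProbabilityMeasure μ] (s0 : Step d) (n : ℕ) :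
    Kernel (Π _ : Iic n, Step d) (Step d) :=
  Kernel.ofFunOfCountable (fun y =>
    ∑ s, (pw μ (hist s0 n y ++ [s]) / pw μ (hist s0 n y)) • Measure.dirac s)

theorem kap_one (s0 : Step d) (n : ℕ) (y : Π _ : Iic n, Step d) (s : Step d) :
    kap μ s0 n y {s} = pw μ (hist s0 n y ++ [s]) / pw μ (hist s0 n y) := by
  change (∑ s, (pw μ (hist s0 n y ++ [s]) / pw μ (hist s0 n y)) • Measure.dirac s) {s} = _
  simp [Measure.finsetSum_apply, Pi.single_apply]

theorem kap_markov (hE : Ell μ) (s0 : Step d) (n : ℕ) : IsMarkovKernel (kap μ s0 n) :=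
  ⟨fun y => ⟨by
    change (∑ s, (pw μ (hist s0 n y ++ [s]) / pw μ (hist s0 n y)) • Measure.dirac s) _ = _
    simp only [Measure.finsetSum_apply, Measure.smul_apply, measure_univ, smul_eq_mul, mul_one,
      div_eq_mul_inv, ← sum_mul, pw_sum hE]
    exact ENNReal.mul_inv_cancel (pw_ne hE _) (pw_top hE _)⟩⟩

theorem ex_annealed (hd : 0 < d) (hE : Ell μ) : ∃ P, IsAnnealed μ P := by
  let s0 : Step d := (⟨0, hd⟩, true)
  have := kap_markov hE s0
  set Q := Kernel.trajMeasure (X := fun _ => Step d) (Measure.dirac s0) (kap μ s0) with hQ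
  have hm : Measurable (fun (x : ℕ → Step d) j => x (j + 1)) := by fun_prop
  refine ⟨Q.map (fun x j => x (j + 1)), Measure.isProbabilityMeasure_map hm.aemeasurable,
    fun ζ n => ?_⟩
  rw [← cyl_seg, Measure.map_apply hm (cyl_meas hd _), cyl_seg]
  simp only [← W_seg]
  change _ = pw μ (seg ζ n)
  induction n with
  | zero => simp [seg, pw_nil]
  | succ n ih =>
    let A : Set (Π _ : Iic n, Step d) := {y | ∀ j (h : j < n), y ⟨j + 1, mem_Iic.2 h⟩ = ζ j}
    have hA : MeasurableSet A := (Set.to_countable _).measurableSet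
    have h1 := congrArg (fun m => m (A ×ˢ {ζ n}))
      (Kernel.map_frestrictLe_trajMeasure_compProd_eq_map_trajMeasure
        (X := fun _ => Step d) (μ₀ := Measure.dirac s0) (κ := kap μ s0) (a := n))
    rw [Measure.compProd_apply_prod hA (measurableSet_singleton _),
      Measure.map_apply (by fun_prop) (hA.prod (measurableSet_singleton _)),
      setLIntegral_congr_fun hA (g := fun _ => pw μ (seg ζ (n + 1)) / pw μ (seg ζ n)) (fun y hy => by
        have : hist s0 n y = seg ζ n := List.map_congr_left (fun j hj => by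
          have hj' := List.mem_range.1 hj
          rw [dif_pos (show j + 1 ≤ n from hj')]; exact hy j hj')
        simp only [kap_one, this, seg_succ]),
      setLIntegral_const, Measure.map_apply (by fun_prop) hA, ← hQ] at h1
    have h2 : Q (frestrictLe n ⁻¹' A) = pw μ (seg ζ n) := ih
    rw [h2, ENNReal.div_mul_cancel (pw_ne hE _) (pw_top hE _)] at h1
    rw [h1]
    congr 1
    ext x
    simp only [Set.mem_preimage, Set.mem_ofPred, Set.mem_prod, Set.mem_singleton_iff, A,
      Nat.forall_lt_succ_right, frestrictLe_apply]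

end Vale.Agent.P147
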