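import Vale.Agent.P147.Joint

/-! P147: from positive probability of escape with linear range to bridges of all heights. -/

namespace Vale.Agent.P147

open MeasureTheory ProbabilityTheory Filter Finset
open scoped ENNReal

variable {d : ℕ} {μ : Measure (Step d → ℝ)} [IsProbabilityMeasure μ] {L : Site d →+ ℤ} {M : ℕ}

def Esc (L : Site d →+ ℤ) (C : ℕ) : Set (ℕ → Step d) :=
  {ξ | Tendsto (fun n => L (walk ξ n)) atTop atTop ∧
    ∀ᶠ n in atTop, (rng ξ n : ℤ) ≤ C * L (walk ξ n)}

def Raw (L : Site d →+ ℤ) (K C a : ℕ) (γ : List (Step d)) : Prop :=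
  Br L γ ∧ (∃ o ∈ range (K + 1), L (pos γ) = a + o) ∧ (dep 0 γ).card ≤ C * (a + 1)

theorem walk_add (ξ : ℕ → Step d) (t n : ℕ) :
    walk ξ (t + n) = walk ξ t + walk (fun j => ξ (t + j)) n := by
  rw [← pos_seg, seg_add, pos_append, pos_seg, pos_seg]

theorem esc_sub {K C : ℕ} (hK : ∀ s, L (vec s) ≤ K) : Esc L C ⊆
    ⋃ p : List (Step d) × ℕ, {ξ | ∀ a, ∃ γ, Raw L K p.2 a γ ∧ ξ ∈ cyl (p.1 ++ γ)} := by
  classical
  rintro ξ ⟨h1, h2⟩
  obtain ⟨n0, hn0⟩ := eventually_atTop.1 h2
  obtain ⟨t, ht⟩ : ∃ t, ∀ n, L (walk ξ t) ≤ L (walk ξ n) :=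
    (Nat.cofinite_eq_atTop ▸ h1 : Tendsto _ cofinite atTop).exists_forall_le
  refine Set.mem_iUnion.2 ⟨(seg ξ t, n0 + 1 + C * ((L (walk ξ t)).natAbs + K) + C), fun a => ?_⟩
  set ζ : ℕ → Step d := fun j => ξ (t + j) with hζ
  have hwa : ∀ n, walk ξ (t + n) = walk ξ t + walk ζ n := walk_add ξ t
  have hsa : ∀ n, seg ξ t ++ seg ζ n = seg ξ (t + n) := fun n => (seg_add ξ t n).symm
  have hex : ∃ n, (a : ℤ) ≤ L (walk ζ n) := by
    obtain ⟨n, hn⟩ := eventually_atTop.1 (h1.eventually_ge_atTop (L (walk ξ t) + a))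
    have := hn (t + n) (by omega)
    rw [hwa, map_add] at this
    exact ⟨n, by omega⟩
  have hT := Nat.find_spec hex
  have hT' := fun m => Nat.find_min hex (m := m)
  set T := Nat.find hex
  have hh : L (walk ζ T) ≤ a + K := by
    rcases Nat.eq_zero_or_eq_succ_pred T with h | h
    · rw [h]; simp only [walk, range_zero, sum_empty, map_zero]; positivity
    · have := hT' T.pred (by omega)
      rw [h, walk, sum_range_succ, map_add]
      have := hK (ζ T.pred)
      unfold walk at *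
      omega
  refine ⟨seg ζ T, ⟨fun x hx => ?_, ⟨(L (walk ζ T) - a).toNat, mem_range.2 (by omega), by
    rw [pos_seg]; omega⟩, ?_⟩, by simp only [cyl, hsa, seg_length, Set.mem_ofPred]⟩
  · rw [dep_seg] at hx
    obtain ⟨j, hj, rfl⟩ := mem_image.1 hx
    have h3 := ht (t + j)
    have h4 := hT' j (mem_range.1 hj)
    rw [hwa, map_add] at h3
    rw [pos_seg]
    omega
  · have h3 : (dep 0 (seg ζ T)).card ≤ rng ξ (t + T) := by
      rw [← card_dep (walk ξ t)]
      refine card_le_card (fun v hv => ?_)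
      have := mem_dep.1 hv
      rw [dep_seg] at this
      obtain ⟨j, hj, e⟩ := mem_image.1 this
      refine mem_image.2 ⟨t + j, mem_range.2 (by have := mem_range.1 hj; omega), ?_⟩
      rw [hwa, e]; abel
    refine h3.trans ?_
    rcases le_total n0 (t + T) with h | h
    · have h4 := hn0 _ h
      rw [hwa, map_add] at h4
      have h5 : (rng ξ (t + T) : ℤ) ≤ C * ((L (walk ξ t)).natAbs + K + a) :=
        h4.trans (mul_le_mul_of_nonneg_left (by omega) (by positivity))
      have h6 : rng ξ (t + T) ≤ C * ((L (walk ξ t)).natAbs + K + a) := by exact_mod_cast h5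
      nlinarith [Nat.zero_le (C * ((L (walk ξ t)).natAbs + K) * a), Nat.zero_le (n0 * a)]
    · have h4 : rng ξ (t + T) ≤ t + T + 1 := card_image_le.trans (card_range _).le
      nlinarith [Nat.zero_le ((n0 + 1 + C * ((L (walk ξ t)).natAbs + K) + C) * a),
        Nat.zero_le (C * ((L (walk ξ t)).natAbs + K))]

theorem good (hd : 0 < d) (hE : Ell μ) {P : Measure (ℕ → Step d)} (hP : IsAnnealed μ P)
    (hM : 0 < M) {K F C : ℕ} (hK : ∀ s, L (vec s) ≤ K)
    (hF : ∀ m : ℕ, F ≤ m → ∃ r, Br L r ∧ L (pos r) = m) (hMF : F + K ≤ M) (h : P (Esc L C) ≠ 0) :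
    Good μ L hM := by
  classical
  obtain ⟨⟨l0, C'⟩, hδ⟩ : ∃ p : List (Step d) × ℕ,
      P {ξ | ∀ a, ∃ γ, Raw L K p.2 a γ ∧ ξ ∈ cyl (p.1 ++ γ)} ≠ 0 := by
    by_contra h0
    push Not at h0
    exact h (measure_mono_null (esc_sub hK) (measure_iUnion_null h0))
  set δ := P {ξ | ∀ a, ∃ γ, Raw L K C' a γ ∧ ξ ∈ cyl (l0 ++ γ)} with hδ'
  have h1 : ∀ a, δ ≤ ∑' γ, if Raw L K C' a γ then pw μ γ else 0 := by
    intro a
    refine (measure_mono (t := ⋃ γ, if Raw L K C' a γ then cyl (l0 ++ γ) else ∅)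
      (fun ξ hξ => ?_)).trans ((measure_iUnion_le _).trans (ENNReal.tsum_le_tsum (fun γ => ?_)))
    · obtain ⟨γ, h1, h2⟩ := hξ a
      exact Set.mem_iUnion.2 ⟨γ, by rwa [if_pos h1]⟩
    · split_ifs
      · rw [P_cyl hd hP]; exact pw_le hE _ _
      · simp
  choose! r hr using hF
  obtain ⟨o0, -, ho0⟩ := exists_min_image (range (K + 1)) (fun o => pw μ (r (F + K - o)))
    ⟨0, by simp⟩
  set ρ := pw μ (r (F + K - o0))
  set Cr := ∑ o ∈ range (K + 1), (dep 0 (r (F + K - o))).card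
  refine ⟨min 1 (δ * ρ / (K + 1 : ℕ)), C' * M + Cr, (lt_min zero_lt_one (ENNReal.div_pos
    (mul_ne_zero hδ (pw_ne hE _)) (ENNReal.natCast_ne_top _))).ne', fun k => ?_⟩
  rcases Nat.eq_zero_or_pos k with rfl | hk
  · rw [Gr.S_zero, if_pos (by exact Nat.zero_le _)]
    exact min_le_left _ _
  refine (min_le_right _ _).trans (ENNReal.div_le_of_le_mul ?_)
  obtain ⟨a, ha⟩ : ∃ a, M * k = a + (F + K) := ⟨M * k - (F + K), by
    have := Nat.le_mul_of_pos_right M hk; omega⟩
  set G : List (Step d) → ℝ≥0∞ := fun l => if (Br L l ∧ L (pos l) = M * k) ∧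
    (dep 0 l).card ≤ (C' * M + Cr) * (k + 1) then pw μ l else 0 with hG
  have h2 : ∑' l, G l ≤ (gr μ L hM).S k
      (fun x => if (dep 0 x.1).card ≤ (C' * M + Cr) * (k + 1) then 1 else 0) := by
    rw [← (Subtype.val_injective (p := fun l => Br L l ∧ (M : ℤ) ∣ L (pos l))).tsum_eq]
    · refine ENNReal.tsum_le_tsum (fun x => ?_)
      simp only [hG]
      split_ifs with h1 h2 h3
      · exact (mul_one _).ge
      · exact absurd h1.2 h3
      · refine absurd ?_ h2
        have := h1.1.2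
        rw [hgt_eq] at this
        exact_mod_cast mul_left_cancel₀ (by exact_mod_cast hM.ne') this
      all_goals exact zero_le
    · intro l hl
      have : (Br L l ∧ L (pos l) = M * k) ∧ (dep 0 l).card ≤ (C' * M + Cr) * (k + 1) := by
        by_contra h; exact hl (if_neg h)
      exact ⟨⟨l, this.1.1, by rw [this.1.2]; exact dvd_mul_right _ _⟩, rfl⟩
  calc δ * ρ ≤ ∑' γ, ∑ o ∈ range (K + 1), G (γ ++ r (F + K - o)) := by
        refine (mul_le_mul_left (h1 a) _).trans ?_
        rw [← ENNReal.tsum_mul_right]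
        refine ENNReal.tsum_le_tsum (fun γ => ?_)
        split_ifs with hγ
        swap
        · simp
        obtain ⟨b1, ⟨o, ho, b2⟩, b3⟩ := hγ
        have ho' := mem_range.1 ho
        obtain ⟨c1, c2⟩ := hr (F + K - o) (by omega)
        refine le_trans ?_ (single_le_sum (fun _ _ => zero_le) ho)
        simp only [hG]
        rw [if_pos, pw_append μ (by simpa using b1.disj c1 0)]
        · exact mul_le_mul_right (ho0 o ho) _
        · refine ⟨⟨b1.append c1, ?_⟩, ?_⟩
          · rw [pos_append, map_add, b2, c2, ← Nat.cast_mul, ha]; omega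
          · rw [card_cat b1 c1]
            have c3 : (dep 0 (r (F + K - o))).card ≤ Cr :=
              single_le_sum (f := fun o => (dep 0 (r (F + K - o))).card) (fun _ _ => zero_le) ho
            have c4 : C' * (a + 1) ≤ C' * (M * (k + 1)) := Nat.mul_le_mul_left _ (by
              rw [mul_add]; omega)
            nlinarith [Nat.zero_le (Cr * k)]
    _ ≤ _ := by
        rw [Summable.tsum_finsetSum (fun _ _ => ENNReal.summable), mul_comm, ← nsmul_eq_mul]
        conv_rhs => rw [← card_range (K + 1)]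
        exact sum_le_card_nsmul _ _ _ (fun o _ => (ENNReal.tsum_comp_le_tsum_of_injective
          (List.append_left_injective _) G).trans h2)

theorem L_ns (L : Site d →+ ℤ) (n : ℕ) (v : Site d) : L (n • v) = n * L v := by
  rw [map_nsmul, nsmul_eq_mul]

theorem br_rep {s : Step d} (hs : 0 < L (vec s)) (n : ℕ) : Br L (List.replicate n s) := by
  intro x hx
  obtain ⟨j, hj, rfl⟩ := dep_replicate s n _ _ hx
  simp only [zero_add, pos_replicate, L_ns]
  exact ⟨by positivity, mul_lt_mul_of_pos_right (by exact_mod_cast hj) hs⟩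

theorem rep {s s' : Step d} {a b : ℕ} (ha : 0 < a) (hb : 0 < b) (hs : L (vec s) = a)
    (hs' : L (vec s') = b) (hc : a.Coprime b) (m : ℕ) (hm : a * b ≤ m) :
    ∃ r, Br L r ∧ L (pos r) = m := by
  obtain ⟨x, hx⟩ := Nat.modEq_zero_iff_dvd.1 (Nat.chineseRemainder hc 0 m).2.1
  have h1 := Nat.chineseRemainder_lt_mul hc 0 m ha.ne' hb.ne'
  obtain ⟨y, hy⟩ := (Nat.modEq_iff_dvd' (h1.le.trans hm)).1 (Nat.chineseRemainder hc 0 m).2.2
  refine ⟨List.replicate x s ++ List.replicate y s',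
    (br_rep (by omega) x).append (br_rep (by omega) y), ?_⟩
  simp only [pos_append, pos_replicate, map_add, L_ns, hs, hs']
  have : m = x * a + y * b := by rw [mul_comm x, mul_comm y]; omega
  exact_mod_cast this.symm

theorem ex_turn {s : Step d} (hs : 0 < L (vec s)) (y : Site d) (hy : L y = -1) :
    ∃ c, c ≠ [] ∧ pos c = y ∧ ∀ x ∈ dep 0 c, 0 ≤ L x := by
  obtain ⟨q, hq⟩ := ex_path (y + vec s)
  obtain ⟨N, hN⟩ : ∃ N : ℕ, ∀ x ∈ dep 0 q, 0 ≤ N + L x :=
    ⟨∑ x ∈ dep 0 q, (L x).natAbs, fun x hx => by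
      have := single_le_sum (f := fun x => (L x).natAbs) (fun _ _ => Nat.zero_le _) hx
      omega⟩
  refine ⟨List.replicate N s ++ q ++ List.replicate (N + 1) (s.1, !s.2), by simp, ?_, ?_⟩
  · simp only [pos_append, pos_replicate, hq, vec_not, succ_nsmul, smul_neg]; abel
  · intro x hx
    simp only [dep_append, zero_add, mem_union, pos_append, pos_replicate, hq] at hx
    rcases hx with (hx | hx) | hx
    · exact (br_rep hs N x hx).1
    · have := hN _ (mem_dep.1 hx)
      simp only [map_sub, L_ns] at this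
      nlinarith [Int.natCast_nonneg N]
    · obtain ⟨j, hj, rfl⟩ := dep_replicate _ _ _ _ hx
      simp only [vec_not, map_add, L_ns, map_neg, hy]
      have : (j : ℤ) ≤ N := by omega
      nlinarith

theorem main1 (hE : Ell μ) {P : Measure (ℕ → Step d)} (hP : IsAnnealed μ P) {s1 s2 s3 : Step d}
    (h12 : s1.1 ≠ s2.1) (h13 : s1.1 ≠ s3.1) (h23 : s2.1 ≠ s3.1) {a b c : ℕ} (ha : 0 < a)
    (hb : 0 < b) (hc : 0 < c) (e1 : L (vec s1) = a) (e2 : L (vec s2) = b) (e3 : L (vec s3) = c)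
    (hab : a.Coprime b) {C : ℕ} (hU : P (Esc L C) ≠ 0) (hD : P (Esc (-L) C) ≠ 0) : False := by
  have hd : 0 < d := Fin.pos s1.1
  set K := ∑ s, (L (vec s)).natAbs with hK
  have hK' : ∀ s, (L (vec s)).natAbs ≤ K := fun s =>
    single_le_sum (f := fun s => (L (vec s)).natAbs) (fun _ _ => Nat.zero_le _) (mem_univ s)
  have n1 : ∀ {s : Step d} {m : ℕ}, L (vec s) = m → (-L) (vec (s.1, !s.2)) = m := fun h => by
    simp [vec_not, h]
  set T := K + 1 with hT
  have hM : 0 < a * b * c * T := by positivity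
  have hMF : a * b + K ≤ a * b * c * T := by
    have h1 : 1 ≤ a * b := Nat.mul_pos ha hb
    have h2 : a * b * T ≤ a * b * c * T :=
      Nat.mul_le_mul_right _ (Nat.le_mul_of_pos_right _ hc)
    nlinarith
  obtain ⟨r, -, hr⟩ := rep ha hb e1 e2 hab (a * b + 1) (by omega)
  have mk : ∀ (L : Site d →+ ℤ) (s : Step d) (m n : ℕ), 0 < m → L (vec s) = m →
      n * m = a * b * c * T → ∃ x : BX L (a * b * c * T), hgt x = 1 ∧ pos x.1 = n • vec s := by
    intro L s m n hm h1 h2
    have h3 : L (pos (List.replicate n s)) = (a * b * c * T : ℕ) := by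
      rw [pos_replicate, map_nsmul, h1, ← h2]; simp
    refine ⟨⟨List.replicate n s, br_rep (by omega) n, by rw [h3]⟩, ?_, pos_replicate _ _⟩
    rw [hgt, h3, Int.ediv_self (by exact_mod_cast hM.ne')]; rfl
  obtain ⟨U0, u0, u0'⟩ := mk L s1 a (b * c * T) ha e1 (by ring)
  obtain ⟨U1, u1, u1'⟩ := mk L s2 b (a * c * T) hb e2 (by ring)
  obtain ⟨D0, d0, d0'⟩ := mk (-L) _ a (b * c * T) ha (n1 e1) (by ring)
  obtain ⟨D1, d1, d1'⟩ := mk (-L) _ c (a * b * T) hc (n1 e3) (by ring)
  refine main0 hd hE hP hM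
    (good hd hE hP hM (fun s => by have := hK' s; omega) (rep ha hb e1 e2 hab) hMF hU)
    (good hd hE hP hM (fun s => by have := hK' s; simp only [AddMonoidHom.neg_apply]; omega)
      (rep ha hb (n1 e1) (n1 e2) hab) hMF hD) (w := b • vec s1 - pos r)
    (by rw [map_sub, L_ns, e1, hr]; push_cast; ring) (ex_turn (s := s1) (by omega))
    ![U0, U1] ![D0, D1] (fun i => by fin_cases i <;> assumption)
    (fun i => by fin_cases i <;> assumption) (by simp [u0', d0', vec_not]) (fun p q h => ?_)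
  simp only [Matrix.cons_val_zero, Matrix.cons_val_one, u0', u1', d0', d1', vec_not] at h
  have k2 := congrFun h s2.1
  have k3 := congrFun h s3.1
  have hT0 : T ≠ 0 := by omega
  refine Prod.ext ?_ ?_
  · cases h : s2.2 <;> simpa [vec, h, h12.symm, h23, ha.ne', hc.ne', hT0] using k2
  · cases h : s3.2 <;> simpa [vec, h, h13.symm, h23.symm, ha.ne', hb.ne', hT0] using k3

end Vale.Agent.P147
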