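import Vale.Agent.P147.Bridge

/-! P147: pairs of an upward and a downward bridge. -/

namespace Vale.Agent.P147

open MeasureTheory ProbabilityTheory Filter Finset
open scoped ENNReal

variable {d : ℕ} {μ : Measure (Step d → ℝ)} [IsProbabilityMeasure μ] {L : Site d →+ ℤ} {M : ℕ}

noncomputable def NN (L : Site d →+ ℤ) (M : ℕ) (A B : Finset (Site d)) : ℝ≥0∞ :=
  ∑ u ∈ A, ∑ v ∈ B, if blk L M u = blk L M v then 1 else 0

theorem NN_le (hM : 0 < M) {A : Finset (Site d)} (B : Finset (Site d)) {k : ℕ}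
    (hA : ∀ v ∈ A, -(M * k : ℤ) ≤ L v ∧ L v < 0) :
    NN L M A B ≤ ∑ j ∈ range k, cnt L M A j * cnt L M B j := by
  simp only [NN, cnt, sum_mul_sum]
  rw [sum_comm (s := range k)]
  refine sum_le_sum (fun u hu => ?_)
  rw [sum_comm (s := range k)]
  refine sum_le_sum (fun v _ => ?_)
  split_ifs with h
  · have := blk_bd hM (hA u hu)
    refine le_trans ?_ (single_le_sum (fun _ _ => zero_le) (a := (blk L M u).toNat)
      (mem_range.2 (by omega)))
    rw [if_pos (by omega), if_pos (by omega), one_mul]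
  · exact zero_le

theorem NN_cat (hM : 0 < M) {A A' B B' : Finset (Site d)} {a b : Site d} {h : ℕ}
    (ha : L a = -(M * h)) (hb : L b = -(M * h)) (hA : Disjoint A (A'.map (addRightEmbedding a))) :
    NN L M A B + NN L M A' B' ≤
      NN L M (A ∪ A'.map (addRightEmbedding a)) (B ∪ B'.map (addRightEmbedding b)) := by
  unfold NN
  rw [sum_union hA]
  refine add_le_add (sum_le_sum (fun u _ => sum_le_sum_of_subset subset_union_left)) ?_
  rw [sum_map]
  refine sum_le_sum (fun u _ => le_trans (le_of_eq ?_) (sum_le_sum_of_subset subset_union_right))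
  simp only [sum_map, addRightEmbedding_apply, blk_add hM ha, blk_add hM hb, add_left_inj]

theorem bad_le (M : ℕ) (A B : Finset (Site d)) :
    ∑' z : L.ker, (if ¬ Disjoint A (B.map (addRightEmbedding z.1)) then (1 : ℝ≥0∞) else 0) ≤
      NN L M A B := by
  classical
  calc _ ≤ ∑' z : L.ker, ∑ u ∈ A, ∑ v ∈ B,
        if z.1 = u - v then (if blk L M u = blk L M v then (1 : ℝ≥0∞) else 0) else 0 := by
        refine ENNReal.tsum_le_tsum (fun z => ?_)
        split_ifs with h
        · exact zero_le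
        · obtain ⟨u, hu, hu'⟩ := not_disjoint_iff.1 h
          obtain ⟨v, hv, rfl⟩ := mem_map.1 hu'
          refine le_trans ?_ (single_le_sum (fun _ _ => zero_le) hu)
          refine le_trans ?_ (single_le_sum (fun _ _ => zero_le) hv)
          have hz : L z.1 = 0 := z.2
          simp [blk, hz]
    _ ≤ _ := by
        rw [Summable.tsum_finsetSum (fun _ _ => ENNReal.summable)]
        refine sum_le_sum (fun u _ => ?_)
        rw [Summable.tsum_finsetSum (fun _ _ => ENNReal.summable)]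
        refine sum_le_sum (fun v _ => ?_)
        exact (ENNReal.tsum_comp_le_tsum_of_injective (f := (Subtype.val : L.ker → Site d))
          Subtype.val_injective (fun z => if z = u - v then
            (if blk L M u = blk L M v then (1 : ℝ≥0∞) else 0) else 0)).trans
          (tsum_ite_eq _ _).le

theorem lev_disj {A B : Finset (Site d)} {m : ℤ} (hA : ∀ v ∈ A, m ≤ L v) (hB : ∀ v ∈ B, L v < m) :
    Disjoint A B :=
  Finset.disjoint_left.2 (fun v h1 h2 => by have := hA v h1; have := hB v h2; omega)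

theorem low_map {B : Finset (Site d)} {a : Site d} {m : ℤ} (hB : ∀ v ∈ B, L v < 0) (ha : L a = m) :
    ∀ v ∈ B.map (addRightEmbedding a), L v < m := by
  intro v hv
  obtain ⟨u, hu, rfl⟩ := mem_map.1 hv
  have := hB u hu
  simp only [addRightEmbedding_apply, map_add]
  omega

theorem main0 (hd : 0 < d) (hE : Ell μ) {P : Measure (ℕ → Step d)} (hP : IsAnnealed μ P)
    (hM : 0 < M) (hU : Good μ L hM) (hD : Good μ (-L) hM) {w : Site d} (hw : L w = -1)
    (hc : ∀ y, L y = -1 → ∃ c, c ≠ [] ∧ pos c = y ∧ ∀ x ∈ dep 0 c, 0 ≤ L x)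
    (U : Fin 2 → BX L M) (D : Fin 2 → BX (-L) M) (hU1 : ∀ a, hgt (U a) = 1)
    (hD1 : ∀ a, hgt (D a) = 1) (h0 : pos (U 0).1 + pos (D 0).1 = 0)
    (hi : Function.Injective (fun p : ℕ × ℕ =>
      p.1 • (pos (U 1).1 + pos (D 0).1) + p.2 • (pos (U 0).1 + pos (D 1).1))) : False := by
  classical
  obtain ⟨δ1, C1, hδ1, hC1⟩ := hU
  obtain ⟨δ2, C2, hδ2, hC2⟩ := hD
  have u1 := gr_u hd hP L hM
  have u2 := gr_u hd hP (-L) hM
  obtain ⟨a, ha, ha'⟩ := (gr μ L hM).op.side hδ1 u1 (fun x => (dep 0 x.1).card)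
    (fun i y => ((card_cat y.2.1 i.1.2.1).trans (add_comm _ _)).ge) C1 hC1
    (fun x => cnt L M (dep (-pos x.1) x.1)) (fun j => rfl)
    (fun i y j => by
      change cnt L M (dep (-pos (y.1 ++ i.1.1)) (y.1 ++ i.1.1)) j ≤ _
      rw [depU]
      exact cnt_cat hM (by rw [map_neg, hgt_eq]; rfl) (fun v => memU y) j)
    (fun x => (cnt_sum _).trans_eq (by rw [card_dep]))
  obtain ⟨b, hb, hb'⟩ := (gr μ (-L) hM).side hδ2 u2 (fun x => (dep 0 x.1).card)
    (fun i y => (card_cat i.1.2.1 y.2.1).ge) C2 hC2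
    (fun x => cnt L M (dep w x.1)) (fun j => rfl)
    (fun i y j => by
      change cnt L M (dep w (i.1.1 ++ y.1)) j ≤ _
      rw [depD]
      exact cnt_cat hM (posD _) (fun v => memD y hw) j)
    (fun x => (cnt_sum _).trans_eq (by rw [card_dep]))
  set g := (gr μ L hM).op.pair (gr μ (-L) hM) with hg
  have hh : ∀ x : (gr μ L hM).op.PX (gr μ (-L) hM), hgt x.1.2 = hgt x.1.1 := fun x => x.2.symm
  have hu : ∀ k, δ1 * δ2 ≤ g.S k (fun _ => 1) ∧ g.S k (fun _ => 1) ≤ 1 := by
    intro k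
    have := (gr μ L hM).op.S_pair (gr μ (-L) hM) k (fun _ => 1) (fun _ => 1)
    simp only [mul_one] at this
    rw [hg, this]
    exact ⟨mul_le_mul' ((hC1 k).trans ((gr μ L hM).S_mono k (fun x => by split_ifs <;> simp)))
      ((hC2 k).trans ((gr μ (-L) hM).S_mono k (fun x => by split_ifs <;> simp))),
      mul_le_one' (u1 k) (u2 k)⟩
  have hN := g.fin_mean (mul_ne_zero hδ1 hδ2) (ENNReal.mul_ne_top ha hb) hu
    (fun x => NN L M (dep (-pos x.1.1.1) x.1.1.1) (dep w x.1.2.1))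
    (fun i y => by
      change _ ≤ NN L M (dep (-pos (y.1.1.1 ++ i.1.1.1.1)) (y.1.1.1 ++ i.1.1.1.1))
        (dep w (i.1.1.2.1 ++ y.1.2.1))
      rw [depU, depD]
      have e : L (-pos i.1.1.1.1) = -(M * hgt i.1.1.1) := by rw [map_neg, hgt_eq]
      exact NN_cat hM e (by rw [posD, hh])
        (lev_disj (fun v hv => (memU _ hv).1) (low_map (fun v hv => (memU _ hv).2) e)))
    (fun k => by
      refine (g.S_mono' k (f' := fun x => ∑ j ∈ range k,
        cnt L M (dep (-pos x.1.1.1) x.1.1.1) j * cnt L M (dep w x.1.2.1) j)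
        (fun x hx => NN_le hM _ (fun v hv => hx ▸ memU _ hv))).trans ?_
      rw [g.S_sum]
      refine (sum_le_card_nsmul _ _ (a * b) (fun j _ => ?_)).trans ?_
      · rw [hg, (gr μ L hM).op.S_pair (gr μ (-L) hM) k (fun x => cnt L M (dep (-pos x.1) x.1) j)
          (fun x => cnt L M (dep w x.1) j)]
        exact mul_le_mul' (ha' k j) (hb' k j)
      · rw [card_range, nsmul_eq_mul, mul_comm]
        exact mul_le_mul_right le_self_add _)
  let δ0 : (gr μ L hM).op.PX (gr μ (-L) hM) → L.ker := fun x =>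
    ⟨pos x.1.1.1 + pos x.1.2.1, by rw [AddMonoidHom.mem_ker, map_add, posD, hh, hgt_eq]; simp⟩
  let σ0 : Fin 2 × Fin 2 → (gr μ L hM).op.PX (gr μ (-L) hM) := fun p =>
    ⟨(U p.1, D p.2), (hU1 _).trans (hD1 _).symm⟩
  refine core (G := L.ker) (fun i : g.I => g.wt i.1) (g.sum_one (mul_ne_zero hδ1 hδ2) hu)
    (fun i => δ0 i.1) (fun i z => ¬ Disjoint (dep (-pos i.1.1.1.1) i.1.1.1.1)
      (dep (w + z.1) i.1.1.2.1)) (ne_top_of_le_ne_top hN ?_)
    (fun z => ∑' x, g.wt x *
      if Disjoint (dep (-pos x.1.1.1) x.1.1.1) (dep (w + z.1) x.1.2.1) then 1 else 0)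
    (fun z => ?_) (fun z => ?_) (e := δ0 (σ0 (1, 0))) (e' := δ0 (σ0 (0, 1)))
    (fun p q h => hi (congrArg Subtype.val h)) (fun p => ⟨σ0 p, g.irr_one (hU1 _)⟩)
    (fun p => mul_ne_zero (pw_ne hE _) (pw_ne hE _)) (fun p => Subtype.ext ?_)
  · rw [ENNReal.tsum_prod']
    refine ENNReal.tsum_le_tsum (fun i => le_trans (le_of_eq ?_) (mul_le_mul_right (bad_le M _ _) _))
    rw [← ENNReal.tsum_mul_left]
    simp only [dep_add, mul_ite, mul_one, mul_zero]
  · have hz : L z.1 = 0 := z.2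
    obtain ⟨c, h1, h2, h3⟩ := hc (w + z.1) (by rw [map_add, hw, hz]; rfl)
    intro h
    have := turn hd hP hM (w := w + z.1) (by rw [map_add, hw, hz]; rfl) h1 h2 h3
    erw [h] at this
    rw [ENNReal.top_mul (pw_ne hE c)] at this
    simp at this
  · have hz : L (w + z.1) = -1 := by rw [map_add, hw, show L z.1 = 0 from z.2]; rfl
    conv_rhs => rw [g.dec]
    refine add_le_add (by rw [g.wt_nil, one_mul, if_pos (by exact disjoint_empty_left _)]) ?_
    refine ENNReal.tsum_le_tsum (fun i => ?_)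
    rw [← ENNReal.tsum_mul_left]
    refine ENNReal.tsum_le_tsum (fun y => ?_)
    rw [g.wt_cat]
    by_cases h1 : Disjoint (dep (-pos i.1.1.1.1) i.1.1.1.1) (dep (w + z.1) i.1.1.2.1)
    swap
    · simp [h1]
    by_cases h2 : Disjoint (dep (-pos y.1.1.1) y.1.1.1) (dep (w + (z + δ0 i.1).1) y.1.2.1)
    swap
    · rw [if_neg h2, mul_zero, mul_zero]; exact zero_le
    rw [if_neg (not_not.2 h1), if_pos h2, if_pos, mul_assoc]
    change Disjoint (dep (-pos (y.1.1.1 ++ i.1.1.1.1)) (y.1.1.1 ++ i.1.1.1.1))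
      (dep (w + z.1) (i.1.1.2.1 ++ y.1.2.1))
    have e : L (-pos i.1.1.1.1) = -(M * hgt i.1.1.1) := by rw [map_neg, hgt_eq]
    have e' : L (pos i.1.1.2.1) = -(M * hgt i.1.1.1) := by rw [posD, hh]
    rw [depU, depD, disjoint_union_left, disjoint_union_right, disjoint_union_right]
    refine ⟨⟨h1, lev_disj (fun v hv => (memU _ hv).1) (low_map (fun v hv => (memD _ hz hv).2) e')⟩,
      (lev_disj (fun v hv => hh i.1 ▸ (memD _ hz hv).1) (low_map (fun v hv => (memU _ hv).2) e)).symm,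
      ?_⟩
    rw [← dep_add (pos i.1.1.2.1), show w + z.1 + pos i.1.1.2.1 =
      w + (z + δ0 i.1).1 + -pos i.1.1.1.1 by simp [δ0]; abel, dep_add (-pos i.1.1.1.1) y.1.2.1,
      Finset.disjoint_map]
    exact h2
  · have e : pos (D 0).1 = -pos (U 0).1 := eq_neg_of_add_eq_zero_right h0
    obtain ⟨p, q⟩ := p
    fin_cases p <;> fin_cases q <;> simp [δ0, σ0, e]

end Vale.Agent.P147
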