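import Vale.Agent.P147.Good

/-! P147: reduction of real directions to integer level functions. -/

namespace Vale.Agent.P147

open MeasureTheory ProbabilityTheory Filter Finset
open scoped ENNReal

variable {d : ℕ} {μ : Measure (Step d → ℝ)} [IsProbabilityMeasure μ]

theorem ivt (ξ : ℕ → Step d) (i : Fin d) (n : ℕ) :
    ∀ m ∈ uIcc 0 (walk ξ n i), ∃ j < n + 1, walk ξ j i = m := by
  induction n with
  | zero => intro m hm; exact ⟨0, by omega, by simpa [walk, eq_comm] using hm⟩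
  | succ n ih =>
    intro m hm
    by_cases h : m = walk ξ (n + 1) i
    · exact ⟨n + 1, by omega, h.symm⟩
    · have h1 : walk ξ (n + 1) i = walk ξ n i + vec (ξ n) i := by simp [walk, sum_range_succ]
      have h2 : -1 ≤ vec (ξ n) i ∧ vec (ξ n) i ≤ 1 := by
        simp only [vec, Pi.single_apply]; split_ifs <;> simp
      obtain ⟨j, hj, e⟩ := ih m (by rw [mem_uIcc] at hm ⊢; omega)
      exact ⟨j, by omega, e⟩

theorem abs_le_rng (ξ : ℕ → Step d) (i : Fin d) (n : ℕ) : |(walk ξ n i : ℝ)| ≤ rng ξ n := by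
  have h : (uIcc 0 (walk ξ n i)).card ≤ rng ξ n := by
    refine le_trans (card_le_card (fun m hm => ?_)) (card_image_le (f := fun x => x i))
    obtain ⟨j, hj, e⟩ := ivt ξ i n m hm
    exact mem_image.2 ⟨_, mem_image_of_mem _ (mem_range.2 hj), e⟩
  rw [Int.card_uIcc] at h
  have : |walk ξ n i| ≤ rng ξ n := by
    rw [Int.abs_eq_natAbs]; simp only [sub_zero] at h; omega
  exact_mod_cast this

def EscR (ℓ : Fin d → ℝ) (C : ℕ) : Set (ℕ → Step d) :=
  {ξ | Tendsto (fun n => ∑ i, (walk ξ n i : ℝ) * ℓ i) atTop atTop ∧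
    ∀ᶠ n in atTop, (rng ξ n : ℝ) ≤ C * ∑ i, (walk ξ n i : ℝ) * ℓ i}

theorem escR_ex {P : Measure (ℕ → Step d)} {ℓ : Fin d → ℝ} (h : P (LinEsc ℓ) ≠ 0) :
    ∃ C0 : ℕ, ∀ C, C0 ≤ C → P (EscR ℓ C) ≠ 0 := by
  have mono : ∀ (C : ℝ) (C' : ℕ) ξ, C ≤ C' →
      Tendsto (fun n => ∑ i, (walk ξ n i : ℝ) * ℓ i) atTop atTop →
      (∀ᶠ n in atTop, (rng ξ n : ℝ) ≤ C * ∑ i, (walk ξ n i : ℝ) * ℓ i) → ξ ∈ EscR ℓ C' := by
    intro C C' ξ hC h1 h2
    refine ⟨h1, ?_⟩
    filter_upwards [h2, h1.eventually_ge_atTop 0] with n a b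
    exact a.trans (mul_le_mul_of_nonneg_right hC b)
  obtain ⟨C0, h0⟩ : ∃ C0 : ℕ, P (EscR ℓ C0) ≠ 0 := by
    by_contra h0
    push Not at h0
    refine h (measure_mono_null (fun ξ ⟨h1, C, h2⟩ => ?_) (measure_iUnion_null h0))
    exact Set.mem_iUnion.2 ⟨⌈C⌉₊, mono C _ ξ (Nat.le_ceil C) h1 h2⟩
  exact ⟨C0, fun C hC h1 => h0 (measure_mono_null
    (fun ξ hξ => mono C0 C ξ (by exact_mod_cast hC) hξ.1 hξ.2) h1)⟩

theorem escR_sub {ℓ : Fin d → ℝ} {L : Site d →+ ℤ} {C : ℕ} {T B : ℝ} (hB : 0 ≤ B)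
    (hT : B * d * C + 1 ≤ T)
    (h : ∀ x : Site d, T * ∑ i, (x i : ℝ) * ℓ i - B * ∑ i, |(x i : ℝ)| ≤ L x) :
    EscR ℓ C ⊆ Esc L C := by
  rintro ξ ⟨h1, h2⟩
  have h3 : ∀ᶠ n in atTop, ∑ i, (walk ξ n i : ℝ) * ℓ i ≤ L (walk ξ n) := by
    filter_upwards [h2, h1.eventually_ge_atTop 0] with n a b
    have c1 : ∑ i, |(walk ξ n i : ℝ)| ≤ d * rng ξ n := by
      simpa using sum_le_card_nsmul univ _ _ (fun i _ => abs_le_rng ξ i n)
    have c2 := mul_le_mul_of_nonneg_left (c1.trans (mul_le_mul_of_nonneg_left a (by positivity))) hB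
    have c3 := mul_le_mul_of_nonneg_right hT b
    nlinarith [h (walk ξ n)]
  refine ⟨tendsto_intCast_atTop_iff.1 (tendsto_atTop_mono' _ h3 h1), ?_⟩
  filter_upwards [h2, h3] with n a b
  exact_mod_cast a.trans (mul_le_mul_of_nonneg_left b (by positivity))

theorem main2 (hd : 3 ≤ d) (hE : Ell μ) {P : Measure (ℕ → Step d)} (hP : IsAnnealed μ P)
    (ℓ : Fin d → ℝ) : P (LinEsc ℓ) = 0 ∨ P (LinEsc (-ℓ)) = 0 := by
  by_contra h0
  push Not at h0
  obtain ⟨C1, h1⟩ := escR_ex h0.1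
  obtain ⟨C2, h2⟩ := escR_ex h0.2
  set C := max C1 C2
  have hb : ∀ i, ∃ b : ℤ, b ≠ 0 ∧ |(b : ℝ) - (2 * d * C + 1) * ℓ i| ≤ 1 := by
    intro i
    generalize (2 * d * C + 1) * ℓ i = t
    have a1 := Int.floor_le t
    have a2 := Int.lt_floor_add_one t
    by_cases h : ⌊t⌋ = 0
    · refine ⟨1, one_ne_zero, ?_⟩
      rw [h] at a1 a2
      rw [abs_le]; push_cast at *; constructor <;> linarith
    · exact ⟨⌊t⌋, h, by rw [abs_le]; constructor <;> linarith⟩
  choose b hb0 hb1 using hb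
  let i1 : Fin d := ⟨0, by omega⟩
  let i2 : Fin d := ⟨1, by omega⟩
  let i3 : Fin d := ⟨2, by omega⟩
  set T := (b i1).natAbs with hT
  have hT0 : 0 < T := Int.natAbs_pos.2 (hb0 _)
  have hT1 : (1 : ℝ) ≤ T := by exact_mod_cast hT0
  let a : Fin d → ℤ := fun i => T * b i + if i = i2 then (b i).sign else 0
  let L : Site d →+ ℤ := AddMonoidHom.mk' (fun x => ∑ i, x i * a i)
    (fun x y => by simp [add_mul, sum_add_distrib])
  have ha : ∀ i, |(a i : ℝ) - T * (2 * d * C + 1) * ℓ i| ≤ 2 * T := by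
    intro i
    have e1 : |((if i = i2 then (b i).sign else 0 : ℤ) : ℝ)| ≤ 1 := by
      split_ifs
      · rcases Int.sign_trichotomy (b i) with h | h | h <;> simp [h]
      · simp
    have e2 := mul_le_mul_of_nonneg_left (hb1 i) (by positivity : (0 : ℝ) ≤ T)
    rw [← abs_of_nonneg (by positivity : (0 : ℝ) ≤ T), ← abs_mul, abs_of_nonneg (a := (T : ℝ))
      (by positivity)] at e2
    simp only [a, Int.cast_add, Int.cast_mul, Int.cast_natCast]
    rw [abs_le] at e1 e2 ⊢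
    constructor <;> nlinarith [e1.1, e1.2, e2.1, e2.2]
  have hL : ∀ x : Site d, |(L x : ℝ) - T * (2 * d * C + 1) * ∑ i, (x i : ℝ) * ℓ i| ≤
      2 * T * ∑ i, |(x i : ℝ)| := by
    intro x
    simp only [L, AddMonoidHom.mk'_apply, Int.cast_sum, Int.cast_mul, mul_sum, ← sum_sub_distrib]
    refine (abs_sum_le_sum_abs _ _).trans (sum_le_sum (fun i _ => ?_))
    rw [mul_left_comm, ← mul_sub, abs_mul, mul_comm]
    exact mul_le_mul_of_nonneg_right (ha i) (abs_nonneg _)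
  have hTT : 2 * (T : ℝ) * d * C + 1 ≤ T * (2 * d * C + 1) := by nlinarith
  have hv : ∀ i, L (vec (i, decide (0 < b i))) = (T * (b i).natAbs + if i = i2 then 1 else 0 : ℕ) := by
    intro i
    simp only [L, AddMonoidHom.mk'_apply, vec, Pi.single_apply, ite_mul, zero_mul, sum_ite_eq',
      mem_univ, if_true, a]
    rcases lt_or_gt_of_ne (hb0 i) with h | h
    · simp [h.le, Int.sign_eq_neg_one_of_neg h, abs_of_neg h, h.not_gt]
      split_ifs <;> ring
    · simp [h, Int.sign_eq_one_of_pos h, abs_of_pos h]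
  have n12 : i1 ≠ i2 := by simp [i1, i2]
  have n32 : i3 ≠ i2 := by simp [i3, i2]
  refine main1 hE hP (s1 := (i1, _)) (s2 := (i2, _)) (s3 := (i3, _)) n12 (by simp [i1, i3]) n32.symm
    ?_ ?_ ?_ (hv i1) (hv i2) (hv i3) ?_ (C := C)
    (fun h => h1 C (le_max_left _ _) (measure_mono_null (escR_sub (by positivity) hTT
      (fun x => by linarith [(abs_le.1 (hL x)).1])) h))
    (fun h => h2 C (le_max_right _ _) (measure_mono_null (escR_sub (by positivity) hTT
      (fun x => ?_)) h))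
  · rw [if_neg n12, ← hT]; positivity
  · simp
  · have := Int.natAbs_pos.2 (hb0 i3)
    rw [if_neg n32]; positivity
  · rw [if_neg n12, if_pos rfl, ← hT, add_zero]
    exact Nat.Coprime.mul_left (by simp) (by simp)
  · simp only [Pi.neg_apply, mul_neg, sum_neg_distrib, AddMonoidHom.neg_apply, Int.cast_neg]
    linarith [(abs_le.1 (hL x)).2]

end Vale.Agent.P147
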