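import Vale.Agent.P147.Defs

/-! P147: finite paths and their annealed weights. -/

namespace Vale.Agent.P147

open MeasureTheory ProbabilityTheory Filter
open scoped ENNReal

variable {d : ℕ}

abbrev Site (d : ℕ) : Type := Fin d → ℤ

def pos (l : List (Step d)) : Site d := (l.map vec).sum

@[simp] theorem pos_nil : pos ([] : List (Step d)) = 0 := rfl
@[simp] theorem pos_cons (s : Step d) (l : List (Step d)) : pos (s :: l) = vec s + pos l := by
  simp [pos]
@[simp] theorem pos_append (l l' : List (Step d)) : pos (l ++ l') = pos l + pos l' := by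
  simp [pos]

/-- departure sites -/
def dep : Site d → List (Step d) → Finset (Site d)
  | _, [] => ∅
  | x, s :: l => insert x (dep (x + vec s) l)

theorem dep_append (l l' : List (Step d)) : ∀ x, dep x (l ++ l') = dep x l ∪ dep (x + pos l) l' := by
  induction l with
  | nil => intro x; simp [dep]
  | cons s l ih => intro x; simp [dep, ih, add_assoc]

theorem dep_add (a : Site d) (l : List (Step d)) :
    ∀ x, dep (x + a) l = (dep x l).map (addRightEmbedding a) := by
  induction l with
  | nil => intro x; simp [dep]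
  | cons s l ih => intro x; simp [dep, add_right_comm x a, ih, Finset.map_insert]

theorem mem_dep {x y : Site d} {l : List (Step d)} : y ∈ dep x l ↔ y - x ∈ dep 0 l := by
  conv_lhs => rw [← zero_add x, dep_add]
  simp only [Finset.mem_map, addRightEmbedding_apply]
  exact ⟨fun ⟨a, h, e⟩ => by simpa [← e] using h, fun h => ⟨_, h, by simp⟩⟩

theorem card_dep (x : Site d) (l : List (Step d)) : (dep x l).card = (dep 0 l).card := by
  conv_lhs => rw [← zero_add x, dep_add, Finset.card_map]

theorem self_mem_dep (x : Site d) {l : List (Step d)} (h : l ≠ []) : x ∈ dep x l := by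
  cases l with
  | nil => exact absurd rfl h
  | cons s l => simp [dep]

theorem pos_mem_dep (l : List (Step d)) {m : List (Step d)} (h : m ≠ []) :
    pos l ∈ dep 0 (l ++ m) := by
  rw [dep_append, zero_add]
  exact Finset.mem_union_right _ (self_mem_dep _ h)

theorem dep_replicate (s : Step d) (n : ℕ) : ∀ x y, y ∈ dep x (List.replicate n s) →
    ∃ j < n, y = x + j • vec s := by
  induction n with
  | zero => intro x y h; simp [dep] at h
  | succ n ih =>
    intro x y h
    simp only [List.replicate_succ, dep, Finset.mem_insert] at h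
    rcases h with rfl | h
    · exact ⟨0, by omega, by simp⟩
    · obtain ⟨j, hj, rfl⟩ := ih _ _ h
      exact ⟨j + 1, by omega, by rw [succ_nsmul']; abel⟩

theorem pos_replicate (s : Step d) (n : ℕ) : pos (List.replicate n s) = n • vec s := by
  simp [pos]

theorem vec_not (s : Step d) : vec (s.1, !s.2) = -vec s := by
  obtain ⟨i, b⟩ := s
  cases b <;> simp [vec, Pi.single_neg]

theorem ex_path (y : Site d) : ∃ l, pos l = y := by
  induction y using Pi.single_induction with
  | zero => exact ⟨[], rfl⟩
  | add a b ha hb =>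
    obtain ⟨l, rfl⟩ := ha
    obtain ⟨l', rfl⟩ := hb
    exact ⟨l ++ l', pos_append _ _⟩
  | single i m =>
    refine ⟨List.replicate m.natAbs (i, decide (0 ≤ m)), ?_⟩
    rw [pos_replicate, vec, ← Pi.single_smul]
    congr 1
    by_cases h : 0 ≤ m
    · simp [h]
    · simp [h, abs_of_neg (not_le.1 h)]

/-- quenched weight -/
noncomputable def W (ω : Site d → Step d → ℝ) : Site d → List (Step d) → ℝ≥0∞
  | _, [] => 1
  | x, s :: l => ENNReal.ofReal (ω x s) * W ω (x + vec s) l

theorem W_append (ω : Site d → Step d → ℝ) (l l' : List (Step d)) :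
    ∀ x, W ω x (l ++ l') = W ω x l * W ω (x + pos l) l' := by
  induction l with
  | nil => intro x; simp [W]
  | cons s l ih => intro x; simp [W, ih, add_assoc, mul_assoc]

theorem W_meas (l : List (Step d)) : ∀ x, Measurable (fun ω => W ω x l) := by
  induction l with
  | nil => intro x; simp [W]
  | cons s l ih => intro x; exact (by fun_prop : Measurable fun ω : Site d → Step d → ℝ =>
      ENNReal.ofReal (ω x s)).mul (ih _)

theorem W_congr {ω ω' : Site d → Step d → ℝ} (l : List (Step d)) :
    ∀ x, (∀ y ∈ dep x l, ω y = ω' y) → W ω x l = W ω' x l := by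
  induction l with
  | nil => intro x _; rfl
  | cons s l ih =>
    intro x h
    simp only [W]
    rw [h x (by simp [dep]), ih _ (fun y hy => h y (by simp [dep, hy]))]

theorem W_shift (ω : Site d → Step d → ℝ) (a : Site d) (l : List (Step d)) :
    ∀ x, W (fun y => ω (y + a)) x l = W ω (x + a) l := by
  induction l with
  | nil => intro x; rfl
  | cons s l ih => intro x; simp only [W, ih, add_right_comm x]

theorem W_le {ω : Site d → Step d → ℝ} (h : ∀ x s, ω x s ≤ 1) (l : List (Step d)) :
    ∀ x, W ω x l ≤ 1 := by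
  induction l with
  | nil => intro x; exact le_rfl
  | cons s l ih => intro x; exact mul_le_one' (ENNReal.ofReal_le_one.2 (h x s)) (ih _)

theorem W_ne {ω : Site d → Step d → ℝ} (h : ∀ x s, 0 < ω x s) (l : List (Step d)) :
    ∀ x, W ω x l ≠ 0 := by
  induction l with
  | nil => intro x; exact one_ne_zero
  | cons s l ih => intro x; exact mul_ne_zero (by simpa using h x s) (ih _)

variable (μ : Measure (Step d → ℝ)) [IsProbabilityMeasure μ]

noncomputable abbrev env : Measure (Site d → Step d → ℝ) := Measure.infinitePi fun _ : Site d => μ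

/-- annealed weight -/
noncomputable def pw (l : List (Step d)) : ℝ≥0∞ := ∫⁻ ω, W ω 0 l ∂env μ

theorem pw_shift (x : Site d) (l : List (Step d)) : ∫⁻ ω, W ω x l ∂env μ = pw μ l := by
  have h := Measure.infinitePi_map_piCongrLeft (fun _ : Site d => μ) (Equiv.subRight x)
  unfold pw env
  conv_rhs => rw [← h]
  rw [lintegral_map (W_meas l 0) (by fun_prop)]
  congr 1
  funext ω
  rw [← zero_add x, ← W_shift, zero_add]
  congr 1
  funext y
  simp [MeasurableEquiv.coe_piCongrLeft, Equiv.piCongrLeft_apply_eq_cast]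

theorem pw_nil : pw μ [] = 1 := by simp [pw, W]

theorem W_ind {x y : Site d} {l l' : List (Step d)} (h : Disjoint (dep x l) (dep y l')) :
    ∫⁻ ω, W ω x l * W ω y l' ∂env μ = pw μ l * pw μ l' := by
  have key : ∀ (x : Site d) (l : List (Step d)), ∃ G : (dep x l → Step d → ℝ) → ℝ≥0∞,
      Measurable G ∧ (fun ω => W ω x l) = G ∘ fun ω (i : dep x l) => ω i := by
    intro x l
    refine ⟨fun η => W (fun y => if h : y ∈ dep x l then η ⟨y, h⟩ else 0) x l,
      (W_meas l x).comp (measurable_pi_lambda _ (fun y => ?_)), ?_⟩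
    · split_ifs <;> fun_prop
    · funext ω
      exact W_congr l x (fun y hy => by simp [hy])
  obtain ⟨G, hG, e⟩ := key x l
  obtain ⟨G', hG', e'⟩ := key y l'
  have hi := ((iIndepFun_infinitePi (P := fun _ : Site d => μ) (X := fun _ r => r)
    (fun _ => measurable_id)).indepFun_finset _ _ h (fun _ => by fun_prop)).comp hG hG'
  rw [← e, ← e'] at hi
  rw [← pw_shift μ x, ← pw_shift μ y]
  exact lintegral_mul_eq_lintegral_mul_lintegral_of_indepFun (W_meas l x) (W_meas l' y) hi

theorem pw_append {l l' : List (Step d)} (h : Disjoint (dep 0 l) (dep (pos l) l')) :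
    pw μ (l ++ l') = pw μ l * pw μ l' := by
  rw [← W_ind μ h, pw]
  simp only [W_append, zero_add]

variable {μ}

theorem ae_env {Q : (Step d → ℝ) → Prop} (h : ∀ᵐ r ∂μ, Q r) : ∀ᵐ ω ∂env μ, ∀ x, Q (ω x) :=
  ae_all_iff.2 (fun x => (measurePreserving_eval_infinitePi (fun _ : Site d => μ) x
    ).quasiMeasurePreserving.ae h)

def Ell (μ : Measure (Step d → ℝ)) : Prop := ∀ᵐ r ∂μ, (∀ s, 0 < r s) ∧ ∑ s, r s = 1

theorem pw_ne (h : Ell μ) (l : List (Step d)) : pw μ l ≠ 0 := by
  intro h0
  rw [pw, lintegral_eq_zero_iff (W_meas l 0)] at h0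
  obtain ⟨ω, h1, h2⟩ := (h0.and (ae_env h)).exists
  exact W_ne (fun x => (h2 x).1) l 0 h1

theorem pw_le (h : Ell μ) (l l' : List (Step d)) : pw μ (l ++ l') ≤ pw μ l' := by
  rw [← pw_shift μ (pos l) l', pw]
  refine lintegral_mono_ae ?_
  filter_upwards [ae_env h] with ω hω
  rw [W_append, zero_add]
  refine mul_le_of_le_one_left' (W_le (fun x s => ?_) _ _)
  rw [← (hω x).2]
  exact Finset.single_le_sum (fun s _ => ((hω x).1 s).le) (Finset.mem_univ s)

/-- initial segment of a step sequence -/
def seg (ξ : ℕ → Step d) (n : ℕ) : List (Step d) := (List.range n).map ξ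

theorem seg_succ (ξ : ℕ → Step d) (n : ℕ) : seg ξ (n + 1) = seg ξ n ++ [ξ n] := by
  simp [seg, List.range_succ]

theorem seg_add (ξ : ℕ → Step d) (t n : ℕ) :
    seg ξ (t + n) = seg ξ t ++ seg (fun j => ξ (t + j)) n := by
  simp [seg, List.range_add, Function.comp_def]

@[simp] theorem seg_length (ξ : ℕ → Step d) (n : ℕ) : (seg ξ n).length = n := by simp [seg]

theorem pos_seg (ξ : ℕ → Step d) (n : ℕ) : pos (seg ξ n) = walk ξ n := by
  induction n with
  | zero => rfl
  | succ n ih => simp [seg_succ, ih, walk, Finset.sum_range_succ]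

theorem dep_seg (ξ : ℕ → Step d) (n : ℕ) : dep 0 (seg ξ n) = (Finset.range n).image (walk ξ) := by
  induction n with
  | zero => rfl
  | succ n ih =>
    rw [seg_succ, dep_append, ih, pos_seg, Finset.range_add_one, Finset.image_insert]
    ext y; simp [dep]

theorem W_seg (ω : Site d → Step d → ℝ) (ξ : ℕ → Step d) (n : ℕ) : W ω 0 (seg ξ n) =
    ∏ j ∈ Finset.range n, ENNReal.ofReal (ω (walk ξ j) (ξ j)) := by
  induction n with
  | zero => rfl
  | succ n ih => simp [seg_succ, W_append, ih, pos_seg, W, Finset.prod_range_succ]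

def cyl (l : List (Step d)) : Set (ℕ → Step d) := {ξ | seg ξ l.length = l}

theorem cyl_seg (ζ : ℕ → Step d) (n : ℕ) : cyl (seg ζ n) = {ξ | ∀ j < n, ξ j = ζ j} := by
  ext ξ
  simp [cyl, seg]

theorem ex_seg (hd : 0 < d) (l : List (Step d)) : ∃ ζ, l = seg ζ l.length :=
  ⟨fun j => l.getD j (⟨0, hd⟩, true), List.ext_getElem (by simp) (fun j h1 h2 => by
    simp [seg, List.getElem?_eq_getElem h1])⟩

theorem cyl_meas (hd : 0 < d) (l : List (Step d)) : MeasurableSet (cyl l) := by
  obtain ⟨ζ, h⟩ := ex_seg hd l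
  rw [h, cyl_seg]
  simp only [Set.ofPred_forall]
  exact MeasurableSet.iInter (fun j => MeasurableSet.iInter (fun _ =>
    measurable_pi_apply j (measurableSet_singleton _)))

theorem P_cyl (hd : 0 < d) {P : Measure (ℕ → Step d)} (hP : IsAnnealed μ P) (l : List (Step d)) :
    P (cyl l) = pw μ l := by
  obtain ⟨ζ, h⟩ := ex_seg hd l
  rw [h, cyl_seg, hP.2, pw]
  simp only [W_seg]

theorem free_sum (hd : 0 < d) {P : Measure (ℕ → Step d)} (hP : IsAnnealed μ P) {ι : Type}
    (f : ι → List (Step d)) (hf : Function.Injective f)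
    (h : ∀ a b m, f b = f a ++ m → m = []) : ∑' a, pw μ (f a) ≤ 1 := by
  have := hP.1
  have : Countable ι := hf.countable
  have key : ∀ a b ξ, ξ ∈ cyl (f a) → ξ ∈ cyl (f b) → (f a).length ≤ (f b).length → a = b := by
    intro a b ξ ha hb hl
    obtain ⟨n, hn⟩ := Nat.exists_eq_add_of_le hl
    have e := seg_add ξ (f a).length n
    rw [← hn, ha, hb] at e
    have := h _ _ _ e
    rw [this, List.append_nil] at e
    exact hf e.symm
  simp only [← P_cyl hd hP]
  rw [← measure_iUnion (fun a b hab => Set.disjoint_left.2 (fun ξ ha hb => hab (by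
    rcases le_total (f a).length (f b).length with hl | hl
    · exact key a b ξ ha hb hl
    · exact (key b a ξ hb ha hl).symm))) (fun a => cyl_meas hd _)]
  exact prob_le_one

theorem free_sum' (hd : 0 < d) {P : Measure (ℕ → Step d)} (hP : IsAnnealed μ P) {ι : Type}
    (Q : ι → Prop) [DecidablePred Q] (f : ι → List (Step d))
    (hf : ∀ a b, Q a → Q b → f a = f b → a = b)
    (h : ∀ a b m, Q a → Q b → f b = f a ++ m → m = []) :
    ∑' a, (if Q a then pw μ (f a) else 0) ≤ 1 := by
  have := free_sum hd hP (fun a : {a | Q a} => f a.1)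
    (fun a b e => Subtype.ext (hf _ _ a.2 b.2 e)) (fun a b m => h _ _ m a.2 b.2)
  rw [tsum_subtype {a | Q a} (fun a => pw μ (f a))] at this
  simpa [Set.indicator] using this

end Vale.Agent.P147
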