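import Mathlib

/-! P147: renewal structures (graded free monoids with multiplicative weights). -/

namespace Vale.Agent.P147

open scoped ENNReal Topology
open Filter

structure Gr (X : Type) where
  cat : X → X → X
  nil : X
  ht : X → ℕ
  wt : X → ℝ≥0∞
  assoc : ∀ a b c, cat (cat a b) c = cat a (cat b c)
  cat_nil : ∀ a, cat a nil = a
  nil_cat : ∀ a, cat nil a = a
  ht_cat : ∀ a b, ht (cat a b) = ht a + ht b
  ht_zero : ∀ a, ht a = 0 → a = nil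
  wt_nil : wt nil = 1
  wt_cat : ∀ a b, wt (cat a b) = wt a * wt b
  equi : ∀ a b a' b', cat a b = cat a' b' → ht a ≤ ht a' → ∃ m, a' = cat a m ∧ b = cat m b'

theorem abel {ι : Type} (c : ι → ℝ≥0∞) (m : ι → ℕ) (A : ℝ≥0∞)
    (h : ∀ x : ℝ≥0∞, 0 < x → x < 1 → ∑' i, c i * x ^ m i ≤ A) : ∑' i, c i ≤ A := by
  rw [ENNReal.tsum_eq_iSup_sum]
  refine iSup_le (fun s => ?_)
  have h1 : Tendsto (fun x : ℝ≥0∞ => ∑ i ∈ s, c i * x ^ m i) (𝓝[<] 1) (𝓝 (∑ i ∈ s, c i)) := by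
    refine tendsto_finsetSum _ (fun i _ => ?_)
    have : Tendsto (fun x : ℝ≥0∞ => x ^ m i) (𝓝[<] 1) (𝓝 1) := by
      have := ((ENNReal.continuous_pow (m i)).tendsto 1).mono_left
        (nhdsWithin_le_nhds (s := Set.Iio 1))
      simpa using this
    simpa using ENNReal.Tendsto.const_mul (a := c i) this (Or.inl one_ne_zero)
  have : (𝓝[<] (1 : ℝ≥0∞)).NeBot := nhdsLT_neBot_of_exists_lt ⟨0, zero_lt_one⟩
  refine le_of_tendsto h1 ?_
  filter_upwards [Ioo_mem_nhdsLT (zero_lt_one' ℝ≥0∞)] with x hx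
  exact (ENNReal.sum_le_tsum s).trans (h x hx.1 hx.2)

theorem geo_sq (x : ℝ≥0∞) : ∑' k : ℕ, ((k : ℝ≥0∞) + 1) * x ^ k ≤ (∑' k : ℕ, x ^ k) ^ 2 := by
  have h1 : ∀ k : ℕ, ((k : ℝ≥0∞) + 1) * x ^ k = ∑' j : ℕ, if j ≤ k then x ^ k else 0 := by
    intro k
    rw [tsum_eq_sum (s := Finset.range (k + 1)) (fun j hj => by
      rw [if_neg]; simpa [Nat.lt_succ_iff] using hj)]
    rw [Finset.sum_congr rfl (g := fun _ => x ^ k) (fun j hj => by
      rw [if_pos]; simpa [Nat.lt_succ_iff] using hj)]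
    simp
  simp only [h1]
  rw [ENNReal.tsum_comm, sq, ← ENNReal.tsum_mul_right]
  refine ENNReal.tsum_le_tsum (fun j => le_of_eq ?_)
  rw [← ENNReal.tsum_mul_left]
  rw [← (add_right_injective j).tsum_eq (f := fun k => if j ≤ k then x ^ k else 0)]
  · simp [pow_add]
  · intro k hk
    have : j ≤ k := by by_contra h; simp [h] at hk
    exact ⟨k - j, by simp; omega⟩

namespace Gr

variable {X : Type} (g : Gr X)

def Irr (x : X) : Prop := 0 < g.ht x ∧ ∀ a b, x = g.cat a b → g.ht a = 0 ∨ g.ht b = 0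

abbrev I : Type := {x // g.Irr x}

theorem ht_nil : g.ht g.nil = 0 := by
  have := g.ht_cat g.nil g.nil
  rw [g.cat_nil] at this
  omega

theorem ex_dec (n : ℕ) : ∀ x, g.ht x ≤ n → 0 < g.ht x → ∃ i y, g.Irr i ∧ x = g.cat i y := by
  induction n with
  | zero => intro x h1 h2; omega
  | succ n ih =>
    intro x h1 h2
    by_cases hx : g.Irr x
    · exact ⟨x, g.nil, hx, (g.cat_nil x).symm⟩
    · simp only [Irr, h2, true_and, not_forall, not_or] at hx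
      obtain ⟨a, b, rfl, ha, hb⟩ := hx
      rw [g.ht_cat] at h1
      obtain ⟨i, y, hi, rfl⟩ := ih a (by omega) (by omega)
      exact ⟨i, g.cat y b, hi, g.assoc _ _ _⟩

theorem inj1 {i i' y y' : X} (hi : g.Irr i) (hi' : g.Irr i') (h : g.cat i y = g.cat i' y')
    (hl : g.ht i ≤ g.ht i') : i = i' ∧ y = y' := by
  obtain ⟨m, h1, h2⟩ := g.equi _ _ _ _ h hl
  have := hi.1
  have hm : m = g.nil := g.ht_zero m ((hi'.2 _ _ h1).resolve_left (by omega))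
  rw [hm, g.cat_nil] at h1
  rw [hm, g.nil_cat] at h2
  exact ⟨h1.symm, h2⟩

theorem inj : Function.Injective (fun p : g.I × X => g.cat p.1.1 p.2) := by
  rintro ⟨⟨i, hi⟩, y⟩ ⟨⟨i', hi'⟩, y'⟩ h
  have : i = i' ∧ y = y' := by
    rcases le_total (g.ht i) (g.ht i') with hl | hl
    · exact g.inj1 hi hi' h hl
    · have := g.inj1 hi' hi h.symm hl
      exact ⟨this.1.symm, this.2.symm⟩
  obtain ⟨rfl, rfl⟩ := this
  rfl

theorem dec (f : X → ℝ≥0∞) : ∑' x, f x = f g.nil + ∑' i : g.I, ∑' y, f (g.cat i.1 y) := by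
  classical
  rw [ENNReal.tsum_eq_add_tsum_ite g.nil, ← ENNReal.tsum_prod (f := fun (i : g.I) y => f (g.cat i.1 y)),
    ← g.inj.tsum_eq (f := fun x => if x = g.nil then 0 else f x)]
  · congr 2
    funext p
    rw [if_neg]
    intro h
    have h1 := g.ht_cat p.1.1 p.2
    have h2 := p.1.2.1
    rw [h, g.ht_nil] at h1
    omega
  · intro x hx
    have h1 : x ≠ g.nil := by intro h; simp [h] at hx
    obtain ⟨i, y, hi, rfl⟩ := g.ex_dec _ x le_rfl (Nat.pos_of_ne_zero (fun h => h1 (g.ht_zero x h)))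
    exact ⟨(⟨i, hi⟩, y), rfl⟩

/-- weighted sum over the objects of height `k` -/
noncomputable def S (k : ℕ) (f : X → ℝ≥0∞) : ℝ≥0∞ := ∑' x, if g.ht x = k then g.wt x * f x else 0

theorem S_zero (f : X → ℝ≥0∞) : g.S 0 f = f g.nil := by
  unfold S
  rw [tsum_eq_single g.nil (fun x hx => if_neg (fun h => hx (g.ht_zero x h)))]
  simp [g.ht_nil, g.wt_nil]

theorem S_pos {k : ℕ} (hk : 0 < k) (f : X → ℝ≥0∞) : g.S k f = ∑' i : g.I, g.wt i.1 *
    if g.ht i.1 ≤ k then g.S (k - g.ht i.1) (fun y => f (g.cat i.1 y)) else 0 := by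
  unfold S
  rw [g.dec, if_neg (by rw [g.ht_nil]; omega), zero_add]
  congr 1
  funext i
  split_ifs with h
  · rw [← ENNReal.tsum_mul_left]
    congr 1
    funext y
    rw [g.ht_cat, g.wt_cat]
    by_cases h2 : g.ht y = k - g.ht i.1
    · rw [if_pos (by omega), if_pos h2, mul_assoc]
    · rw [if_neg (by omega), if_neg h2, mul_zero]
  · rw [mul_zero]
    refine ENNReal.tsum_eq_zero.2 (fun y => if_neg ?_)
    rw [g.ht_cat]; omega

theorem S_mono (k : ℕ) {f f' : X → ℝ≥0∞} (h : ∀ x, f x ≤ f' x) : g.S k f ≤ g.S k f' :=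
  ENNReal.tsum_le_tsum (fun x => by split_ifs <;> [exact mul_le_mul_right (h x) _; exact le_rfl])

theorem S_add (k : ℕ) (f f' : X → ℝ≥0∞) : g.S k (fun x => f x + f' x) = g.S k f + g.S k f' := by
  unfold S
  rw [← ENNReal.tsum_add]
  congr 1; funext x; split_ifs <;> simp [mul_add]

theorem S_mul (k : ℕ) (c : ℝ≥0∞) (f : X → ℝ≥0∞) : g.S k (fun x => c * f x) = c * g.S k f := by
  unfold S
  rw [← ENNReal.tsum_mul_left]
  congr 1; funext x; split_ifs <;> simp [mul_left_comm]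

theorem S_const {k : ℕ} (h : g.S k (fun _ => 1) ≤ 1) (c : ℝ≥0∞) : g.S k (fun _ => c) ≤ c := by
  have := g.S_mul k c (fun _ => 1)
  simp only [mul_one] at this
  rw [this]
  exact mul_le_of_le_one_right' h

theorem gf (x : ℝ≥0∞) (f : X → ℝ≥0∞) :
    ∑' y, g.wt y * x ^ g.ht y * f y = ∑' k : ℕ, g.S k f * x ^ k := by
  unfold S
  simp only [← ENNReal.tsum_mul_right]
  rw [ENNReal.tsum_comm]
  congr 1
  funext y
  rw [tsum_eq_single (g.ht y) (fun k hk => by rw [if_neg (Ne.symm hk), zero_mul]), if_pos rfl]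
  ring

theorem gfU (x : ℝ≥0∞) : ∑' y, g.wt y * x ^ g.ht y * 1 =
    1 + (∑' i : g.I, g.wt i.1 * x ^ g.ht i.1) * ∑' y, g.wt y * x ^ g.ht y * 1 := by
  conv_lhs => rw [g.dec]
  rw [g.wt_nil, g.ht_nil, ← ENNReal.tsum_mul_right]
  simp only [pow_zero, mul_one, ← ENNReal.tsum_mul_left, g.wt_cat, g.ht_cat, pow_add]
  congr 2; funext i; congr 1; funext y; ring

theorem Z_ne {x : ℝ≥0∞} (hx : x < 1) : ∑' k : ℕ, x ^ k ≠ ⊤ := by
  rw [ENNReal.tsum_geometric]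
  exact ENNReal.inv_ne_top.2 (tsub_pos_of_lt hx).ne'

theorem U_bd {β : ℝ≥0∞} (hu : ∀ k, β ≤ g.S k (fun _ => 1) ∧ g.S k (fun _ => 1) ≤ 1) (x : ℝ≥0∞) :
    β * ∑' k : ℕ, x ^ k ≤ ∑' y, g.wt y * x ^ g.ht y * 1 ∧
      ∑' y, g.wt y * x ^ g.ht y * 1 ≤ ∑' k : ℕ, x ^ k := by
  rw [g.gf, ← ENNReal.tsum_mul_left]
  exact ⟨ENNReal.tsum_le_tsum (fun k => mul_le_mul_left (hu k).1 _),
    ENNReal.tsum_le_tsum (fun k => mul_le_of_le_one_left' (hu k).2)⟩

theorem sum_one {β : ℝ≥0∞} (hβ : β ≠ 0)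
    (hu : ∀ k, β ≤ g.S k (fun _ => 1) ∧ g.S k (fun _ => 1) ≤ 1) : ∑' i : g.I, g.wt i.1 = 1 := by
  have h1 : ∑' i : g.I, g.wt i.1 ≤ 1 := by
    refine abel _ (fun i => g.ht i.1) _ (fun x _ hx => ?_)
    have e1 := g.gfU x
    have e2 := ne_top_of_le_ne_top (Z_ne hx) (g.U_bd hu x).2
    generalize ∑' y, g.wt y * x ^ g.ht y * 1 = U at e1 e2
    have e3 : U ≠ 0 := by rw [e1]; simp
    refine (ENNReal.mul_le_mul_iff_left e3 e2).1 ?_
    rw [one_mul]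
    conv_rhs => rw [e1]
    exact le_add_self
  refine le_antisymm h1 (not_lt.1 (fun h => ?_))
  set F := ∑' i : g.I, g.wt i.1
  have h2 : ∑' _k : ℕ, (1 - F) * β ≤ 1 := by
    refine abel _ (fun k => k) _ (fun x _ hx => ?_)
    have e1 := g.gfU x
    have e2 := ne_top_of_le_ne_top (Z_ne hx) (g.U_bd hu x).2
    have e4 := (g.U_bd hu x).1
    have e5 : ∑' i : g.I, g.wt i.1 * x ^ g.ht i.1 ≤ F :=
      ENNReal.tsum_le_tsum (fun i => mul_le_of_le_one_right' (pow_le_one' hx.le _))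
    generalize ∑' y, g.wt y * x ^ g.ht y * 1 = U at e1 e2 e4
    rw [ENNReal.tsum_mul_left, mul_assoc]
    refine (mul_le_mul_right e4 _).trans ?_
    rw [ENNReal.sub_mul (fun _ _ => e2), one_mul, tsub_le_iff_right]
    conv_lhs => rw [e1]
    gcongr
  rw [ENNReal.tsum_const_eq_top_of_ne_zero (mul_ne_zero (tsub_pos_of_lt h).ne' hβ)] at h2
  simp at h2

theorem fin_mean {β C : ℝ≥0∞} (hβ : β ≠ 0) (hC : C ≠ ⊤)
    (hu : ∀ k, β ≤ g.S k (fun _ => 1) ∧ g.S k (fun _ => 1) ≤ 1) (φ : X → ℝ≥0∞)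
    (hφ : ∀ (i : g.I) y, φ i.1 + φ y ≤ φ (g.cat i.1 y)) (hS : ∀ k, g.S k φ ≤ C * (k + 1)) :
    ∑' i : g.I, g.wt i.1 * φ i.1 ≠ ⊤ := by
  have h1 : ∑' i : g.I, g.wt i.1 * φ i.1 * β ^ 2 ≤ C := by
    refine abel _ (fun i => g.ht i.1) _ (fun x _ hx => ?_)
    have e1 := g.gfU x
    have e2 := ne_top_of_le_ne_top (Z_ne hx) (g.U_bd hu x).2
    have e4 := (g.U_bd hu x).1
    have e5 : ∑' y, g.wt y * x ^ g.ht y * φ y ≤ C * (∑' k : ℕ, x ^ k) ^ 2 := by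
      rw [g.gf]
      refine le_trans ?_ (mul_le_mul_right (geo_sq x) _)
      rw [← ENNReal.tsum_mul_left]
      exact ENNReal.tsum_le_tsum (fun k => by rw [← mul_assoc]; exact mul_le_mul_left (hS k) _)
    have e6 : (∑' i : g.I, g.wt i.1 * φ i.1 * x ^ g.ht i.1) * (∑' y, g.wt y * x ^ g.ht y * 1) +
        (∑' i : g.I, g.wt i.1 * x ^ g.ht i.1) * (∑' y, g.wt y * x ^ g.ht y * φ y) ≤
        ∑' y, g.wt y * x ^ g.ht y * φ y := by
      conv_rhs => rw [g.dec]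
      refine le_trans ?_ le_add_self
      rw [← ENNReal.tsum_mul_right, ← ENNReal.tsum_mul_right, ← ENNReal.tsum_add]
      refine ENNReal.tsum_le_tsum (fun i => ?_)
      rw [← ENNReal.tsum_mul_left, ← ENNReal.tsum_mul_left, ← ENNReal.tsum_add]
      refine ENNReal.tsum_le_tsum (fun y => le_trans (le_of_eq ?_) (mul_le_mul_right (hφ i y) _))
      rw [g.wt_cat, g.ht_cat]; ring
    have hZ := Z_ne hx
    have hZ0 : ∑' k : ℕ, x ^ k ≠ 0 := by
      rw [ENNReal.tsum_geometric]; exact ENNReal.inv_ne_zero.2 (by simp)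
    have e7 : ∑' i : g.I, g.wt i.1 * φ i.1 * β ^ 2 * x ^ g.ht i.1 =
        (∑' i : g.I, g.wt i.1 * φ i.1 * x ^ g.ht i.1) * β ^ 2 := by
      rw [← ENNReal.tsum_mul_right]; congr 1; funext i; ring
    rw [e7]
    generalize ∑' y, g.wt y * x ^ g.ht y * 1 = U at e1 e2 e4 e6
    generalize ∑' y, g.wt y * x ^ g.ht y * φ y = Φ at e5 e6
    generalize ∑' i : g.I, g.wt i.1 * x ^ g.ht i.1 = F at e1 e6
    generalize ∑' i : g.I, g.wt i.1 * φ i.1 * x ^ g.ht i.1 = Φ1 at e6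
    generalize ∑' k : ℕ, x ^ k = Z at e4 e5 hZ hZ0
    have hΦ : Φ ≠ ⊤ := ne_top_of_le_ne_top (ENNReal.mul_ne_top hC (ENNReal.pow_ne_top hZ)) e5
    have hFU : F * U ≠ ⊤ := ne_top_of_le_ne_top e2 (le_add_self.trans_eq e1.symm)
    have e8 : Φ1 * U ^ 2 + F * U * Φ ≤ Φ + F * U * Φ := by
      calc Φ1 * U ^ 2 + F * U * Φ = (Φ1 * U + F * Φ) * U := by ring
        _ ≤ Φ * U := mul_le_mul_left e6 _
        _ = Φ * (1 + F * U) := by rw [← e1]
        _ = Φ + F * U * Φ := by ring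
    have e9 := (ENNReal.add_le_add_iff_right (ENNReal.mul_ne_top hFU hΦ)).1 e8
    refine (ENNReal.mul_le_mul_iff_left (pow_ne_zero 2 hZ0) (ENNReal.pow_ne_top hZ)).1 ?_
    calc Φ1 * β ^ 2 * Z ^ 2 = Φ1 * (β * Z) ^ 2 := by ring
      _ ≤ Φ1 * U ^ 2 := by gcongr
      _ ≤ C * Z ^ 2 := e9.trans e5
  rw [ENNReal.tsum_mul_right] at h1
  intro h
  rw [h, ENNReal.top_mul (pow_ne_zero 2 hβ)] at h1
  exact hC (top_le_iff.1 h1)

end Gr

end Vale.Agent.P147
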