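import Vale.Agent.P147.Main

/-! P147: limiting velocities. -/

namespace Vale.Agent.P147

open MeasureTheory Filter Finset Topology

variable {d : ℕ}

theorem vel_sub {v ℓ : Fin d → ℝ} (h : 0 < ∑ i, v i * ℓ i) :
    {ξ : ℕ → Step d | Tendsto (fun (n : ℕ) (i : Fin d) => (walk ξ n i : ℝ) / n) atTop (𝓝 v)} ⊆
      LinEsc ℓ := by
  intro ξ hξ
  set c := ∑ i, v i * ℓ i with hc
  have h1 : Tendsto (fun n : ℕ => ∑ i, (walk ξ n i : ℝ) / n * ℓ i) atTop (𝓝 c) :=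
    tendsto_finsetSum _ (fun i _ => (tendsto_pi_nhds.1 hξ i).mul_const _)
  have h2 : ∀ᶠ n : ℕ in atTop, c / 2 * n ≤ ∑ i, (walk ξ n i : ℝ) * ℓ i := by
    filter_upwards [h1.eventually (lt_mem_nhds (show c / 2 < c by linarith)),
      eventually_gt_atTop 0] with n a b
    have hn : (0 : ℝ) < n := by exact_mod_cast b
    simp only [div_mul_eq_mul_div _ (n : ℝ), ← sum_div] at a
    exact ((lt_div_iff₀ hn).1 a).le
  refine ⟨tendsto_atTop_mono' _ h2 (tendsto_natCast_atTop_atTop.const_mul_atTop (by linarith)),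
    4 / c, ?_⟩
  filter_upwards [h2, eventually_ge_atTop 1] with n a b
  have h3 : (rng ξ n : ℝ) ≤ n + 1 := by exact_mod_cast card_image_le.trans (card_range _).le
  have hn : (1 : ℝ) ≤ n := by exact_mod_cast b
  rw [div_mul_eq_mul_div, le_div_iff₀ h]
  nlinarith

theorem ex_dir {v v' : Fin d → ℝ} (h : ¬ SameRay ℝ v v') :
    ∃ ℓ : Fin d → ℝ, 0 < ∑ i, v i * ℓ i ∧ 0 < ∑ i, v' i * (-ℓ) i := by
  let x : EuclideanSpace ℝ (Fin d) := WithLp.toLp 2 v
  let y : EuclideanSpace ℝ (Fin d) := WithLp.toLp 2 v'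
  have hx : x ≠ 0 := fun e => h (Or.inl (congrArg WithLp.ofLp e))
  have hy : y ≠ 0 := fun e => h (Or.inr (Or.inl (congrArg WithLp.ofLp e)))
  have hx' := norm_pos_iff.2 hx
  have hy' := norm_pos_iff.2 hy
  have h1 : inner ℝ x y < ‖x‖ * ‖y‖ := by
    refine lt_of_le_of_ne (real_inner_le_norm x y) (fun e => h ?_)
    rw [inner_eq_norm_mul_iff_real] at e
    exact Or.inr (Or.inr ⟨_, _, hy', hx', congrArg WithLp.ofLp e⟩)
  have e1 : inner ℝ x y = ∑ i, v i * v' i := by simp [x, y, PiLp.inner_apply, mul_comm]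
  have e2 : ‖x‖ ^ 2 = ∑ i, v i * v i := by
    rw [EuclideanSpace.real_norm_sq_eq]; simp [x, sq]
  have e3 : ‖y‖ ^ 2 = ∑ i, v' i * v' i := by
    rw [EuclideanSpace.real_norm_sq_eq]; simp [y, sq]
  refine ⟨fun i => ‖y‖ * v i - ‖x‖ * v' i, ?_, ?_⟩
  · simp only [mul_sub, sum_sub_distrib, mul_left_comm (v _), ← mul_sum, ← e1, ← e2]
    nlinarith
  · simp only [Pi.neg_apply, neg_sub, mul_sub, sum_sub_distrib, mul_left_comm (v' _),
      mul_comm (v' _) (v _), ← mul_sum, ← e1, ← e3]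
    nlinarith

end Vale.Agent.P147
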